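import Vale.Agent.H28.Scalar2

open Filter Topology Set

namespace Vale.Agent.H19.GAD

open Vale.Agent.H28

/-- sum of the two scalar eigenvalues -/
noncomputable def sg (x y δ ε : ℝ) : ℝ := x + δ + y + ε

/-- product of the two scalar eigenvalues -/
noncomputable def pr (x y δ ε : ℝ) : ℝ := x * ε + y * δ + δ * ε

/-- larger scalar eigenvalue -/
noncomputable def lP (x y δ ε : ℝ) : ℝ := rootP (sg x y δ ε) (pr x y δ ε)

/-- smaller scalar eigenvalue -/
noncomputable def lM (x y δ ε : ℝ) : ℝ := rootM (sg x y δ ε) (pr x y δ ε)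

/-- weight of the first site in the top eigenvector -/
noncomputable def th (x y δ ε : ℝ) : ℝ :=
  (x + δ - lM x y δ ε) / (lP x y δ ε - lM x y δ ε)

/-- the function `A` -/
noncomputable def Af (x y δ ε r : ℝ) : ℝ :=
  th x y δ ε * Real.log (r + lP x y δ ε) + (1 - th x y δ ε) * Real.log (r + lM x y δ ε)
    - Real.log (r + δ)

/-- the scalar determinant -/
noncomputable def dt (x y δ ε r : ℝ) : ℝ := (r + δ) * (r + ε) + x * (r + ε) + y * (r + δ)

section

variable {x y δ ε : ℝ}

theorem sg_swap (x y δ ε : ℝ) : sg y x ε δ = sg x y δ ε := by unfold sg; ring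

theorem pr_swap (x y δ ε : ℝ) : pr y x ε δ = pr x y δ ε := by unfold pr; ring

theorem lP_swap (x y δ ε : ℝ) : lP y x ε δ = lP x y δ ε := by
  unfold lP; rw [sg_swap, pr_swap]

theorem lM_swap (x y δ ε : ℝ) : lM y x ε δ = lM x y δ ε := by
  unfold lM; rw [sg_swap, pr_swap]

theorem dt_swap (x y δ ε r : ℝ) : dt y x ε δ r = dt x y δ ε r := by unfold dt; ring

theorem disc_pos (hx : 0 < x) (hy : 0 < y) : 0 < sg x y δ ε ^ 2 - 4 * pr x y δ ε := by
  unfold sg pr
  have : (x + δ + y + ε) ^ 2 - 4 * (x * ε + y * δ + δ * ε)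
      = (x + δ - y - ε) ^ 2 + 4 * (x * y) := by ring
  rw [this]
  have := mul_pos hx hy
  nlinarith [sq_nonneg (x + δ - y - ε)]

theorem l_add (x y δ ε : ℝ) : lP x y δ ε + lM x y δ ε = x + δ + y + ε := root_add _ _

theorem l_mul (hx : 0 < x) (hy : 0 < y) :
    lP x y δ ε * lM x y δ ε = x * ε + y * δ + δ * ε :=
  root_mul (by have := disc_pos (δ := δ) (ε := ε) hx hy; linarith)

theorem l_lt (hx : 0 < x) (hy : 0 < y) : lM x y δ ε < lP x y δ ε := by
  unfold lM lP rootM rootP
  have := Real.sqrt_pos.2 (disc_pos (δ := δ) (ε := ε) hx hy)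
  linarith

theorem lM_lt (hx : 0 < x) (hy : 0 < y) : lM x y δ ε < x + δ := by
  have h1 := l_add x y δ ε
  have h2 := l_mul (δ := δ) (ε := ε) hx hy
  have h3 := l_lt (δ := δ) (ε := ε) hx hy
  by_contra h
  push Not at h
  have h4 : (lP x y δ ε - (x + δ)) * (lM x y δ ε - (x + δ)) = - (x * y) := by
    have e : (lP x y δ ε - (x + δ)) * (lM x y δ ε - (x + δ))
      = lP x y δ ε * lM x y δ ε - (x + δ) * (lP x y δ ε + lM x y δ ε) + (x + δ) ^ 2 := by ring
    rw [e, h1, h2]; ring
  have h5 : 0 ≤ (lP x y δ ε - (x + δ)) * (lM x y δ ε - (x + δ)) :=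
    mul_nonneg (by linarith) (by linarith)
  have := mul_pos hx hy
  linarith

theorem lt_lP (hx : 0 < x) (hy : 0 < y) : x + δ < lP x y δ ε := by
  have h1 := l_add x y δ ε
  have h2 := l_mul (δ := δ) (ε := ε) hx hy
  have h3 := l_lt (δ := δ) (ε := ε) hx hy
  by_contra h
  push Not at h
  have h4 : (lP x y δ ε - (x + δ)) * (lM x y δ ε - (x + δ)) = - (x * y) := by
    have e : (lP x y δ ε - (x + δ)) * (lM x y δ ε - (x + δ))
      = lP x y δ ε * lM x y δ ε - (x + δ) * (lP x y δ ε + lM x y δ ε) + (x + δ) ^ 2 := by ring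
    rw [e, h1, h2]; ring
  have h5 : 0 ≤ (lP x y δ ε - (x + δ)) * (lM x y δ ε - (x + δ)) :=
    mul_nonneg_of_nonpos_of_nonpos (by linarith) (by linarith)
  have := mul_pos hx hy
  linarith

theorem lM_pos (hx : 0 < x) (hy : 0 < y) (hδ : 0 < δ) (hε : 0 < ε) : 0 < lM x y δ ε := by
  have h2 := l_mul (δ := δ) (ε := ε) hx hy
  have h3 := lt_lP (δ := δ) (ε := ε) hx hy
  have h4 : 0 < lP x y δ ε := by linarith
  have h5 : 0 < lP x y δ ε * lM x y δ ε := by rw [h2]; positivity
  exact (mul_pos_iff_of_pos_left h4).1 h5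

theorem lP_pos (hx : 0 < x) (hy : 0 < y) (hδ : 0 < δ) : 0 < lP x y δ ε := by
  have h3 := lt_lP (δ := δ) (ε := ε) hx hy
  linarith

theorem th_pos (hx : 0 < x) (hy : 0 < y) : 0 < th x y δ ε := by
  unfold th
  apply div_pos
  · linarith [lM_lt (δ := δ) (ε := ε) hx hy]
  · linarith [l_lt (δ := δ) (ε := ε) hx hy]

theorem th_lt (hx : 0 < x) (hy : 0 < y) : th x y δ ε < 1 := by
  unfold th
  rw [div_lt_one (by linarith [l_lt (δ := δ) (ε := ε) hx hy])]
  linarith [lt_lP (δ := δ) (ε := ε) hx hy]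

theorem th_swap (hx : 0 < x) (hy : 0 < y) : th y x ε δ = 1 - th x y δ ε := by
  unfold th
  rw [lP_swap, lM_swap]
  have h : lP x y δ ε - lM x y δ ε ≠ 0 := by
    have := l_lt (δ := δ) (ε := ε) hx hy
    exact (sub_pos.2 this).ne'
  have h1 := l_add x y δ ε
  rw [eq_sub_iff_add_eq, ← add_div, div_eq_one_iff_eq h]
  linarith

/-- first moment identity -/
theorem th_mean (hx : 0 < x) (hy : 0 < y) :
    th x y δ ε * lP x y δ ε + (1 - th x y δ ε) * lM x y δ ε = x + δ := by
  unfold th
  have h : lP x y δ ε - lM x y δ ε ≠ 0 := by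
    have := l_lt (δ := δ) (ε := ε) hx hy
    exact (sub_pos.2 this).ne'
  field_simp
  ring

theorem dt_eq (hx : 0 < x) (hy : 0 < y) (r : ℝ) :
    (r + lP x y δ ε) * (r + lM x y δ ε) = dt x y δ ε r := by
  have h1 := l_add x y δ ε
  have h2 := l_mul (δ := δ) (ε := ε) hx hy
  have e : (r + lP x y δ ε) * (r + lM x y δ ε)
      = r ^ 2 + r * (lP x y δ ε + lM x y δ ε) + lP x y δ ε * lM x y δ ε := by ring
  rw [e, h1, h2]
  unfold dt
  ring

theorem dt_pos (hx : 0 < x) (hy : 0 < y) (hδ : 0 < δ) (hε : 0 < ε) {r : ℝ} (hr : 0 ≤ r) :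
    0 < dt x y δ ε r := by
  unfold dt; positivity

theorem Af_swap (hx : 0 < x) (hy : 0 < y) (r : ℝ) :
    Af y x ε δ r = (1 - th x y δ ε) * Real.log (r + lP x y δ ε)
      + th x y δ ε * Real.log (r + lM x y δ ε) - Real.log (r + ε) := by
  unfold Af
  rw [th_swap hx hy, lP_swap, lM_swap]
  ring

theorem Af_add (hx : 0 < x) (hy : 0 < y) (hδ : 0 < δ) (hε : 0 < ε) {r : ℝ} (hr : 0 ≤ r) :
    Af x y δ ε r + Af y x ε δ r = Real.log (1 + x / (r + δ) + y / (r + ε)) := by
  rw [Af_swap hx hy]
  unfold Af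
  have p1 : 0 < r + lP x y δ ε := by have := lP_pos (ε := ε) hx hy hδ; linarith
  have p2 : 0 < r + lM x y δ ε := by have := lM_pos hx hy hδ hε; linarith
  have p3 : 0 < r + δ := by linarith
  have p4 : 0 < r + ε := by linarith
  have e : 1 + x / (r + δ) + y / (r + ε) = dt x y δ ε r / ((r + δ) * (r + ε)) := by
    unfold dt
    field_simp
  rw [e, ← dt_eq hx hy, Real.log_div (by positivity) (by positivity),
    Real.log_mul p1.ne' p2.ne', Real.log_mul p3.ne' p4.ne']
  ring

theorem Af_hasDeriv (hx : 0 < x) (hy : 0 < y) (hδ : 0 < δ) (hε : 0 < ε) {r : ℝ} (hr : 0 ≤ r) :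
    HasDerivAt (Af x y δ ε) (-(x * (r + ε)) / ((r + δ) * dt x y δ ε r)) r := by
  have p1 : 0 < r + lP x y δ ε := by have := lP_pos (ε := ε) hx hy hδ; linarith
  have p2 : 0 < r + lM x y δ ε := by have := lM_pos hx hy hδ hε; linarith
  have p3 : 0 < r + δ := by linarith
  have p4 := dt_pos hx hy hδ hε hr
  have d1 : HasDerivAt (fun r : ℝ => Real.log (r + lP x y δ ε)) (1 / (r + lP x y δ ε)) r :=
    ((hasDerivAt_id r).add_const _).log p1.ne'
  have d2 : HasDerivAt (fun r : ℝ => Real.log (r + lM x y δ ε)) (1 / (r + lM x y δ ε)) r :=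
    ((hasDerivAt_id r).add_const _).log p2.ne'
  have d3 : HasDerivAt (fun r : ℝ => Real.log (r + δ)) (1 / (r + δ)) r :=
    ((hasDerivAt_id r).add_const _).log p3.ne'
  have d := ((d1.const_mul (th x y δ ε)).fun_add (d2.const_mul (1 - th x y δ ε))).fun_sub d3
  refine HasDerivAt.congr_deriv d ?_
  have h1 := l_add x y δ ε
  have h3 := th_mean (δ := δ) (ε := ε) hx hy
  have hd := dt_eq (δ := δ) (ε := ε) hx hy r
  have e1 : th x y δ ε * (1 / (r + lP x y δ ε)) + (1 - th x y δ ε) * (1 / (r + lM x y δ ε))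
      = (r + (y + ε)) / dt x y δ ε r := by
    rw [← hd]
    have : r + (y + ε) = th x y δ ε * (r + lM x y δ ε) + (1 - th x y δ ε) * (r + lP x y δ ε) := by
      have h4 : th x y δ ε * lM x y δ ε + (1 - th x y δ ε) * lP x y δ ε = y + ε := by
        have h5 : th x y δ ε * lM x y δ ε + (1 - th x y δ ε) * lP x y δ ε
          = (lP x y δ ε + lM x y δ ε) - (th x y δ ε * lP x y δ ε
            + (1 - th x y δ ε) * lM x y δ ε) := by ring
        rw [h5, h1, h3]; ring
      rw [← h4]; ring
    rw [this]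
    field_simp
  rw [e1]
  have p4' : dt x y δ ε r ≠ 0 := p4.ne'
  have : (r + (y + ε)) * (r + δ) - dt x y δ ε r = -(x * (r + ε)) := by
    unfold dt; ring
  rw [← this]
  field_simp

theorem Af_antitone (hx : 0 < x) (hy : 0 < y) (hδ : 0 < δ) (hε : 0 < ε) :
    AntitoneOn (Af x y δ ε) (Ici 0) := by
  apply antitoneOn_of_deriv_nonpos (convex_Ici 0)
  · intro r hr
    exact (Af_hasDeriv hx hy hδ hε hr).continuousAt.continuousWithinAt
  · intro r hr
    rw [interior_Ici] at hr
    exact (Af_hasDeriv hx hy hδ hε (le_of_lt hr)).differentiableAt.differentiableWithinAt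
  · intro r hr
    rw [interior_Ici] at hr
    have hr' : 0 < r := hr
    rw [(Af_hasDeriv hx hy hδ hε hr'.le).deriv]
    apply div_nonpos_of_nonpos_of_nonneg
    · have : 0 < x * (r + ε) := by positivity
      linarith
    · have := dt_pos hx hy hδ hε hr'.le
      positivity

theorem Af_le_log (hx : 0 < x) (hy : 0 < y) (hδ : 0 < δ) (hε : 0 < ε) {r : ℝ} (hr : 0 ≤ r) :
    Af x y δ ε r ≤ Real.log (1 + x / (r + δ)) := by
  have p1 : 0 < r + lP x y δ ε := by have := lP_pos (ε := ε) hx hy hδ; linarith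
  have p2 : 0 < r + lM x y δ ε := by have := lM_pos hx hy hδ hε; linarith
  have p3 : 0 < r + δ := by linarith
  have h := log_weighted (th_pos (δ := δ) (ε := ε) hx hy).le
    (sub_nonneg.2 (th_lt (δ := δ) (ε := ε) hx hy).le) (by ring) p1 p2
  have h3 := th_mean (δ := δ) (ε := ε) hx hy
  have e : th x y δ ε * (r + lP x y δ ε) + (1 - th x y δ ε) * (r + lM x y δ ε)
      = r + (x + δ) := by rw [← h3]; ring
  rw [e] at h
  unfold Af
  have e2 : 1 + x / (r + δ) = (r + (x + δ)) / (r + δ) := by field_simp; ring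
  rw [e2, Real.log_div (by positivity) p3.ne']
  linarith

theorem Af_nonneg (hx : 0 < x) (hy : 0 < y) (hδ : 0 < δ) (hε : 0 < ε) {r : ℝ} (hr : 0 ≤ r) :
    0 ≤ Af x y δ ε r := by
  have hlim : Tendsto (fun T : ℝ => Real.log ((T + lM x y δ ε) / (T + δ))) atTop (𝓝 0) := by
    have h1 : Tendsto (fun T : ℝ => 1 + (lM x y δ ε - δ) / (T + δ)) atTop (𝓝 (1 + 0)) := by
      apply tendsto_const_nhds.add
      apply tendsto_const_nhds.div_atTop
      exact tendsto_atTop_add_const_right _ _ tendsto_id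
    have h2 := (Real.continuousAt_log (by norm_num : (1 + 0 : ℝ) ≠ 0)).tendsto.comp h1
    simp only [add_zero, Real.log_one] at h2
    refine h2.congr' ?_
    filter_upwards [eventually_gt_atTop 0] with T hT
    simp only [Function.comp_apply]
    congr 1
    have : T + δ ≠ 0 := by positivity
    field_simp
    ring
  refine le_of_tendsto hlim ?_
  filter_upwards [eventually_ge_atTop r] with T hT
  have hT0 : 0 ≤ T := hr.trans hT
  refine le_trans ?_ (Af_antitone hx hy hδ hε (mem_Ici.2 hr) (mem_Ici.2 hT0) hT)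
  have p1 : 0 < T + lP x y δ ε := by have := lP_pos (ε := ε) hx hy hδ; linarith
  have p2 : 0 < T + lM x y δ ε := by have := lM_pos hx hy hδ hε; linarith
  have p3 : 0 < T + δ := by linarith
  rw [Real.log_div p2.ne' p3.ne']
  unfold Af
  have h1 : Real.log (T + lM x y δ ε) ≤ Real.log (T + lP x y δ ε) :=
    Real.log_le_log p2 (by linarith [l_lt (δ := δ) (ε := ε) hx hy])
  have h2 := th_pos (δ := δ) (ε := ε) hx hy
  nlinarith

/-- the key two-point inequality for the curve -/
theorem Af_two_point (hx : 0 < x) (hy : 0 < y) (hδ : 0 < δ) (hε : 0 < ε) {r r' : ℝ}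
    (hr : 0 ≤ r) (hr' : 0 ≤ r') :
    Af x y δ ε r + Af y x ε δ r' ≤ Real.log (1 + x / (r + δ) + y / (r' + ε)) := by
  set h : ℝ → ℝ := fun t => Real.log (1 + x / (t + δ) + y / (r' + ε)) - Af x y δ ε t with hh
  have hder : ∀ t, 0 ≤ t → HasDerivAt h
      (-(x / (t + δ) ^ 2) / (1 + x / (t + δ) + y / (r' + ε))
        - -(x * (t + ε)) / ((t + δ) * dt x y δ ε t)) t := by
    intro t ht
    have p1 : 0 < t + δ := by linarith
    have p2 : 0 < 1 + x / (t + δ) + y / (r' + ε) := by positivity
    have d1 : HasDerivAt (fun t : ℝ => x / (t + δ)) (-(x / (t + δ) ^ 2)) t := by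
      have := (hasDerivAt_const t x).fun_div ((hasDerivAt_id t).add_const δ) p1.ne'
      refine this.congr_deriv ?_
      simp
      ring
    have d2 : HasDerivAt (fun t : ℝ => 1 + x / (t + δ) + y / (r' + ε)) (-(x / (t + δ) ^ 2)) t :=
      (d1.const_add 1).add_const _
    exact (d2.log p2.ne').fun_sub (Af_hasDeriv hx hy hδ hε ht)
  -- the derivative in a factored form
  have hfac : ∀ t, 0 ≤ t → (-(x / (t + δ) ^ 2) / (1 + x / (t + δ) + y / (r' + ε))
        - -(x * (t + ε)) / ((t + δ) * dt x y δ ε t))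
      = x * y * (t - r') / ((t + δ) ^ 2 * (1 + x / (t + δ) + y / (r' + ε)) *
          (dt x y δ ε t) * (r' + ε)) * (t + δ) := by
    intro t ht
    have p1 : 0 < t + δ := by linarith
    have p2 : 0 < 1 + x / (t + δ) + y / (r' + ε) := by positivity
    have p3 : 0 < dt x y δ ε t := dt_pos hx hy hδ hε ht
    have p4 : 0 < r' + ε := by linarith
    have e : (1 + x / (t + δ) + y / (r' + ε))
        = ((t + δ) * (r' + ε) + x * (r' + ε) + y * (t + δ)) / ((t + δ) * (r' + ε)) := by
      field_simp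
    rw [e]
    have p5 : 0 < (t + δ) * (r' + ε) + x * (r' + ε) + y * (t + δ) := by positivity
    have p6 : (t + δ) * (r' + ε) + x * (r' + ε) + y * (t + δ) ≠ 0 := p5.ne'
    have p7 := p3.ne'
    field_simp
    unfold dt
    ring
  have hr'0 : h r' = Af y x ε δ r' := by
    simp only [hh]
    rw [← Af_add hx hy hδ hε hr']
    ring
  have hcont : ∀ t, 0 ≤ t → ContinuousAt h t := fun t ht => (hder t ht).continuousAt
  have key : h r' ≤ h r := by
    rcases le_total r r' with hle | hle
    · have hanti : AntitoneOn h (Icc 0 r') := by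
        apply antitoneOn_of_deriv_nonpos (convex_Icc 0 r')
        · intro t ht
          exact (hcont t ht.1).continuousWithinAt
        · intro t ht
          rw [interior_Icc] at ht
          exact (hder t ht.1.le).differentiableAt.differentiableWithinAt
        · intro t ht
          rw [interior_Icc] at ht
          rw [(hder t ht.1.le).deriv, hfac t ht.1.le]
          have p1 : 0 < t + δ := by linarith [ht.1]
          have p2 : 0 < 1 + x / (t + δ) + y / (r' + ε) := by positivity
          have p3 : 0 < dt x y δ ε t := dt_pos hx hy hδ hε ht.1.le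
          have p4 : 0 < r' + ε := by linarith
          have p5 : t - r' ≤ 0 := by linarith [ht.2]
          apply mul_nonpos_of_nonpos_of_nonneg _ p1.le
          apply div_nonpos_of_nonpos_of_nonneg _ (by positivity)
          exact mul_nonpos_of_nonneg_of_nonpos (by positivity) p5
      exact hanti ⟨hr, hle⟩ ⟨hr', le_rfl⟩ hle
    · have hmono : MonotoneOn h (Ici r') := by
        apply monotoneOn_of_deriv_nonneg (convex_Ici r')
        · intro t ht
          exact (hcont t (hr'.trans ht)).continuousWithinAt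
        · intro t ht
          rw [interior_Ici] at ht
          have ht' : r' < t := ht
          exact (hder t (by linarith)).differentiableAt.differentiableWithinAt
        · intro t ht
          rw [interior_Ici] at ht
          have ht' : r' < t := ht
          have ht0 : 0 ≤ t := by linarith
          rw [(hder t ht0).deriv, hfac t ht0]
          have p1 : 0 < t + δ := by linarith
          have p2 : 0 < 1 + x / (t + δ) + y / (r' + ε) := by positivity
          have p3 : 0 < dt x y δ ε t := dt_pos hx hy hδ hε ht0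
          have p4 : 0 < r' + ε := by linarith
          have p5 : 0 ≤ t - r' := by linarith
          positivity
      exact hmono (mem_Ici.2 le_rfl) (mem_Ici.2 hle) hle
  have : h r = Real.log (1 + x / (r + δ) + y / (r' + ε)) - Af x y δ ε r := rfl
  rw [hr'0, this] at key
  linarith

/-- antiderivative of `Af` -/
noncomputable def AA (x y δ ε T : ℝ) : ℝ :=
  th x y δ ε * ((T + lP x y δ ε) * Real.log (T + lP x y δ ε))
    + (1 - th x y δ ε) * ((T + lM x y δ ε) * Real.log (T + lM x y δ ε))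
    - (T + δ) * Real.log (T + δ)

theorem AA_hasDeriv (hx : 0 < x) (hy : 0 < y) (hδ : 0 < δ) (hε : 0 < ε) {r : ℝ} (hr : 0 ≤ r) :
    HasDerivAt (AA x y δ ε) (Af x y δ ε r) r := by
  have p1 : 0 < r + lP x y δ ε := by have := lP_pos (ε := ε) hx hy hδ; linarith
  have p2 : 0 < r + lM x y δ ε := by have := lM_pos hx hy hδ hε; linarith
  have p3 : 0 < r + δ := by linarith
  have d : ∀ c : ℝ, r + c ≠ 0 → HasDerivAt (fun T : ℝ => (T + c) * Real.log (T + c))
      (Real.log (r + c) + 1) r := by
    intro c hc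
    have h1 : HasDerivAt (fun T : ℝ => T + c) 1 r := (hasDerivAt_id r).add_const c
    have h2 := (Real.hasDerivAt_mul_log hc).comp r h1
    simpa [Function.comp_def] using h2
  have d1 := (((d _ p1.ne').const_mul (th x y δ ε)).fun_add
    ((d _ p2.ne').const_mul (1 - th x y δ ε))).fun_sub (d _ p3.ne')
  refine HasDerivAt.congr_deriv d1 ?_
  unfold Af
  ring

theorem AA_sub_le (hx : 0 < x) (hy : 0 < y) (hδ : 0 < δ) (hε : 0 < ε) {u v : ℝ} (hu : 0 ≤ u)
    (huv : u ≤ v) : AA x y δ ε v - AA x y δ ε u ≤ Af x y δ ε u * (v - u) := by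
  have hanti : AntitoneOn (fun t => AA x y δ ε t - Af x y δ ε u * t) (Ici u) := by
    have hder : ∀ t, u ≤ t → HasDerivAt (fun t => AA x y δ ε t - Af x y δ ε u * t)
        (Af x y δ ε t - Af x y δ ε u) t := by
      intro t ht
      have h1 := AA_hasDeriv hx hy hδ hε (hu.trans ht)
      have h2 : HasDerivAt (fun t : ℝ => Af x y δ ε u * t) (Af x y δ ε u) t := by
        simpa using (hasDerivAt_id t).const_mul (Af x y δ ε u)
      exact h1.fun_sub h2
    apply antitoneOn_of_deriv_nonpos (convex_Ici u)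
    · intro t ht
      exact (hder t ht).continuousAt.continuousWithinAt
    · intro t ht
      rw [interior_Ici] at ht
      exact (hder t (le_of_lt ht)).differentiableAt.differentiableWithinAt
    · intro t ht
      rw [interior_Ici] at ht
      have ht' : u < t := ht
      rw [(hder t ht'.le).deriv]
      have := Af_antitone hx hy hδ hε (mem_Ici.2 hu) (mem_Ici.2 (hu.trans ht'.le)) ht'.le
      linarith
  have := hanti (mem_Ici.2 le_rfl) (mem_Ici.2 huv) huv
  simp only at this
  linarith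

theorem AA_mono (hx : 0 < x) (hy : 0 < y) (hδ : 0 < δ) (hε : 0 < ε) :
    MonotoneOn (AA x y δ ε) (Ici 0) := by
  apply monotoneOn_of_deriv_nonneg (convex_Ici 0)
  · intro r hr
    exact (AA_hasDeriv hx hy hδ hε hr).continuousAt.continuousWithinAt
  · intro r hr
    rw [interior_Ici] at hr
    exact (AA_hasDeriv hx hy hδ hε (le_of_lt hr)).differentiableAt.differentiableWithinAt
  · intro r hr
    rw [interior_Ici] at hr
    rw [(AA_hasDeriv hx hy hδ hε (le_of_lt hr)).deriv]
    exact Af_nonneg hx hy hδ hε (le_of_lt hr)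

end

end Vale.Agent.H19.GAD
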