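import Vale.Agent.H19.GAD.ZAll
import Vale.Agent.H13.GADG

open Set

namespace Vale.Agent.H19.GAD

open Vale.Agent.H28

theorem gg_eq (γ ν q : ℝ) : gg γ ν q
    = Real.binEntropy ((1 + √(1 - 4 * (γ * (1 - γ) * (q - ν) ^ 2 + γ * ν * (1 - ν)))) / 2) := by
  unfold gg
  rw [pairEnt_one]
  congr 4
  ring

theorem capacity_all {γ ν : ℝ} (hγ : γ ∈ Icc (0 : ℝ) 1) (hν : ν ∈ Icc (0 : ℝ) 1) :
    (∀ n : ℕ, IsGreatest (holevoSet (tensorPow (gad γ ν) n)) (n * holevo (gad γ ν))) ∧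
    rateSet (gad γ ν) = {holevo (gad γ ν)} ∧
    capacity (gad γ ν) = holevo (gad γ ν) ∧
    IsGreatest ((fun q : ℝ => (Real.binEntropy ((1 - γ) * q + γ * ν)
      - Real.binEntropy ((1 + √(1 - 4 * (γ * (1 - γ) * (q - ν) ^ 2 + γ * ν * (1 - ν)))) / 2))
        / Real.log 2) '' Icc 0 1) (capacity (gad γ ν)) := by
  obtain ⟨h1, h2, h3, h4⟩ := additivity hγ.1 hγ.2 hν.1 hν.2
    (Vale.Agent.H13.GADG.g_convex_all hγ.1 hγ.2 hν.1 hν.2) (zclaim_all hγ.1 hγ.2 hν.1 hν.2)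
    (fun q => rfl)
  refine ⟨h1, h2, h3, ?_⟩
  have himg : (fun q : ℝ => (Real.binEntropy ((1 - γ) * q + γ * ν)
      - Real.binEntropy ((1 + √(1 - 4 * (γ * (1 - γ) * (q - ν) ^ 2 + γ * ν * (1 - ν)))) / 2))
        / Real.log 2)
      = (fun q : ℝ => (Real.binEntropy (γ * ν + (1 - γ) * q) - gg γ ν q) / Real.log 2) := by
    funext q
    rw [gg_eq, add_comm ((1 - γ) * q)]
  rw [himg]
  exact h4

end Vale.Agent.H19.GAD
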