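import Mathlib

open Filter Topology Set MeasureTheory

namespace Vale.Agent.H19.GAD

theorem ind_intervalIntegrable (t a b : ℝ) :
    IntervalIntegrable (fun s : ℝ => if s < t then (1 : ℝ) else 0) volume a b := by
  have : Antitone (fun s : ℝ => if s < t then (1 : ℝ) else 0) := by
    intro u v huv
    simp only
    split_ifs with h1 h2
    · exact le_rfl
    · exact absurd (lt_of_le_of_lt huv h1) h2
    · exact zero_le_one
    · exact le_rfl
  exact this.intervalIntegrable

theorem ind_integral (t : ℝ) {R : ℝ} (hR : 0 ≤ R) :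
    ∫ s in (0 : ℝ)..R, (if s < t then (1 : ℝ) else 0) = min (max t 0) R := by
  set t' := min (max t 0) R with ht'
  have h0 : 0 ≤ t' := le_min (le_max_right _ _) hR
  have h1 : t' ≤ R := min_le_right _ _
  rw [← intervalIntegral.integral_add_adjacent_intervals (b := t')
    (ind_intervalIntegrable t 0 t') (ind_intervalIntegrable t t' R)]
  have e1 : ∫ s in (0 : ℝ)..t', (if s < t then (1 : ℝ) else 0) = ∫ s in (0 : ℝ)..t', (1 : ℝ) := by
    apply intervalIntegral.integral_congr_ae
    have hne : ∀ᵐ s : ℝ ∂volume, s ≠ t' := by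
      rw [ae_iff]; simp
    filter_upwards [hne] with s hs hmem
    rw [uIoc_of_le h0] at hmem
    have h2 : s < t' := lt_of_le_of_ne hmem.2 hs
    have h3 : s < max t 0 := lt_of_lt_of_le h2 (min_le_left _ _)
    rw [if_pos]
    rcases lt_max_iff.1 h3 with h4 | h4
    · exact h4
    · exact absurd hmem.1 (not_lt.2 h4.le)
  have e2 : ∫ s in t'..R, (if s < t then (1 : ℝ) else 0) = ∫ s in t'..R, (0 : ℝ) := by
    apply intervalIntegral.integral_congr_ae
    refine Eventually.of_forall fun s hmem => ?_
    rw [uIoc_of_le h1] at hmem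
    rw [if_neg]
    have h2 : t' < R := lt_of_lt_of_le hmem.1 hmem.2
    have h3 : t' = max t 0 := by
      rcases min_choice (max t 0) R with h | h
      · rw [ht', h]
      · rw [ht', h] at h2
        exact absurd h2 (lt_irrefl _)
    have h4 : max t 0 < s := by rw [← h3]; exact hmem.1
    exact not_lt.2 (le_of_lt (lt_of_le_of_lt (le_max_left _ _) h4))
  rw [e1, e2]
  simp

/-- primitive of the difference of log-determinants -/
noncomputable def GG {Z X : Type*} [Fintype Z] [Fintype X] (m : Z → ℝ) (d e : X → ℝ) (T : ℝ) : ℝ :=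
  ∑ i, (T + m i) * Real.log (T + m i) - ∑ i, (T + d i) * Real.log (T + d i)
    - ∑ i, (T + e i) * Real.log (T + e i)

theorem xlog_hasDeriv {c r : ℝ} (hc : r + c ≠ 0) :
    HasDerivAt (fun T : ℝ => (T + c) * Real.log (T + c)) (Real.log (r + c) + 1) r := by
  have h1 : HasDerivAt (fun T : ℝ => T + c) 1 r := (hasDerivAt_id r).add_const c
  have h2 := (Real.hasDerivAt_mul_log hc).comp r h1
  simpa [Function.comp_def] using h2

theorem int_lower {κ Z X : Type*} [Fintype Z] [Fintype X] (F : Finset κ) (c t : κ → ℝ)
    {m : Z → ℝ} {d e : X → ℝ} (hm : ∀ i, 0 ≤ m i) (hd : ∀ i, 0 ≤ d i) (he : ∀ i, 0 ≤ e i)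
    (hcard : Fintype.card Z = 2 * Fintype.card X)
    (h : ∀ s : ℝ, 0 < s → ∑ i ∈ F, c i * (if s < t i then 1 else 0)
      ≤ ∑ i, Real.log (s + m i) - ∑ i, Real.log (s + d i) - ∑ i, Real.log (s + e i))
    {R : ℝ} (hR : 0 ≤ R) :
    ∑ i ∈ F, c i * min (max (t i) 0) R ≤ GG m d e R - GG m d e 0 := by
  have hc : (Fintype.card Z : ℝ) = 2 * Fintype.card X := by exact_mod_cast hcard
  have hcont1 : ∀ c : ℝ, Continuous (fun T : ℝ => (T + c) * Real.log (T + c)) := fun c =>
    Real.continuous_mul_log.comp (continuous_id.add continuous_const)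
  have hcont : Continuous (GG m d e) := by
    unfold GG
    exact ((continuous_finsetSum _ fun i _ => hcont1 _).sub
      (continuous_finsetSum _ fun i _ => hcont1 _)).sub (continuous_finsetSum _ fun i _ => hcont1 _)
  have hder : ∀ T : ℝ, 0 < T → HasDerivAt (GG m d e)
      (∑ i, Real.log (T + m i) - ∑ i, Real.log (T + d i) - ∑ i, Real.log (T + e i)) T := by
    intro T hT
    have k1 : HasDerivAt (fun T : ℝ => ∑ i, (T + m i) * Real.log (T + m i))
        (∑ i, (Real.log (T + m i) + 1)) T := HasDerivAt.fun_sum fun i _ =>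
      xlog_hasDeriv (by have := hm i; positivity)
    have k2 : HasDerivAt (fun T : ℝ => ∑ i, (T + d i) * Real.log (T + d i))
        (∑ i, (Real.log (T + d i) + 1)) T := HasDerivAt.fun_sum fun i _ =>
      xlog_hasDeriv (by have := hd i; positivity)
    have k3 : HasDerivAt (fun T : ℝ => ∑ i, (T + e i) * Real.log (T + e i))
        (∑ i, (Real.log (T + e i) + 1)) T := HasDerivAt.fun_sum fun i _ =>
      xlog_hasDeriv (by have := he i; positivity)
    have k := (k1.fun_sub k2).fun_sub k3
    refine k.congr_deriv ?_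
    simp only [Finset.sum_add_distrib, Finset.sum_const, Finset.card_univ, nsmul_eq_mul, mul_one]
    rw [hc]
    ring
  set φ : ℝ → ℝ := fun s => ∑ i ∈ F, c i * (if s < t i then 1 else 0) with hφ
  have hint : ∀ i ∈ F, IntervalIntegrable (fun s : ℝ => c i * (if s < t i then (1 : ℝ) else 0))
      volume 0 R := fun i _ => (ind_intervalIntegrable (t i) 0 R).const_mul (c i)
  have hφint : IntervalIntegrable φ volume 0 R := by
    have := IntervalIntegrable.sum F hint
    refine this.congr ?_
    intro s _
    simp [hφ]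
  have key := intervalIntegral.integral_le_sub_of_hasDeriv_right_of_le (g := GG m d e) (φ := φ) hR
    hcont.continuousOn (fun s hs => (hder s hs.1).hasDerivWithinAt)
    ((intervalIntegrable_iff_integrableOn_Icc_of_le hR).1 hφint) (fun s hs => h s hs.1)
  refine le_trans (le_of_eq ?_) key
  simp only [hφ]
  rw [intervalIntegral.integral_finsetSum hint]
  apply Finset.sum_congr rfl
  intro i _
  rw [intervalIntegral.integral_const_mul, ind_integral _ hR]

theorem lim_weighted {ι : Type*} [Fintype ι] (w c : ι → ℝ) (h0 : ∑ i, w i = 0)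
    (h1 : ∑ i, w i * c i = 0) :
    Tendsto (fun T : ℝ => ∑ i, w i * ((T + c i) * Real.log (T + c i))) atTop (𝓝 0) := by
  have key : Tendsto (fun T : ℝ => ∑ i, w i * (T * Real.log (1 + c i / T)
      + c i * Real.log (1 + c i / T))) atTop (𝓝 (∑ i, w i * (c i + c i * 0))) := by
    apply tendsto_finsetSum
    intro i _
    apply Tendsto.const_mul
    apply Tendsto.add
    · exact Real.tendsto_mul_log_one_add_div_atTop (c i)
    · apply Tendsto.const_mul
      have : Tendsto (fun T : ℝ => 1 + c i / T) atTop (𝓝 (1 + 0)) :=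
        tendsto_const_nhds.add (tendsto_const_nhds.div_atTop tendsto_id)
      have h2 := (Real.continuousAt_log (by norm_num : (1 + 0 : ℝ) ≠ 0)).tendsto.comp this
      simpa [Function.comp_def] using h2
  have e0 : ∑ i, w i * (c i + c i * 0) = 0 := by simpa using h1
  rw [e0] at key
  refine key.congr' ?_
  have hev : ∀ᶠ T : ℝ in atTop, ∀ i, 0 < T + c i := by
    rw [Filter.eventually_all]
    intro i
    filter_upwards [eventually_gt_atTop (-c i)] with T hT
    linarith
  filter_upwards [eventually_gt_atTop 0, hev] with T hT hTc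
  have e1 : ∀ i, w i * ((T + c i) * Real.log (T + c i)) =
      w i * (T * Real.log (1 + c i / T) + c i * Real.log (1 + c i / T))
        + (w i * (T * Real.log T) + (w i * c i) * Real.log T) := by
    intro i
    have hT1 := hTc i
    have : T + c i = T * (1 + c i / T) := by field_simp
    have hp : 0 < 1 + c i / T := by
      have h2 : 1 + c i / T = (T + c i) / T := by field_simp
      rw [h2]; positivity
    rw [show Real.log (T + c i) = Real.log T + Real.log (1 + c i / T) by
      rw [this, Real.log_mul hT.ne' hp.ne']]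
    ring
  rw [Finset.sum_congr rfl (fun i _ => e1 i), Finset.sum_add_distrib,
    Finset.sum_add_distrib, ← Finset.sum_mul, ← Finset.sum_mul, h0, h1]
  ring

end Vale.Agent.H19.GAD
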