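import Vale.Agent.H19.GAD.Curve

open Filter Topology Set

namespace Vale.Agent.H19.GAD

open Vale.Agent.H28

/-- the concave function `φ̂` -/
noncomputable def ph (x y δ ε lam : ℝ) : ℝ :=
  if lam ≤ 0 then 0 else Af x y δ ε (max (x / lam - δ) 0)

section

variable {x y δ ε : ℝ}

theorem ph_nonneg (hx : 0 < x) (hy : 0 < y) (hδ : 0 < δ) (hε : 0 < ε) (lam : ℝ) :
    0 ≤ ph x y δ ε lam := by
  unfold ph
  split_ifs
  · exact le_rfl
  · exact Af_nonneg hx hy hδ hε (le_max_right _ _)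

theorem ph_zero (x y δ ε : ℝ) : ph x y δ ε 0 = 0 := by
  unfold ph; simp

theorem ph_le (hx : 0 < x) (hy : 0 < y) (hδ : 0 < δ) (hε : 0 < ε) (lam : ℝ) :
    ph x y δ ε lam ≤ Af x y δ ε 0 := by
  unfold ph
  split_ifs
  · exact Af_nonneg hx hy hδ hε le_rfl
  · exact Af_antitone hx hy hδ hε (mem_Ici.2 le_rfl) (mem_Ici.2 (le_max_right _ _))
      (le_max_right _ _)

theorem ph_le_log (hx : 0 < x) (hy : 0 < y) (hδ : 0 < δ) (hε : 0 < ε) {lam r' : ℝ}
    (hl : 0 ≤ lam) (hr' : 0 ≤ r') :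
    ph x y δ ε lam ≤ Real.log (1 + lam + y / (r' + ε)) - Af y x ε δ r' := by
  have p4 : 0 < r' + ε := by linarith
  unfold ph
  split_ifs with h
  · have hl0 : lam = 0 := le_antisymm h hl
    rw [hl0, add_zero]
    have := Af_le_log hy hx hε hδ hr'
    linarith
  · push Not at h
    set r := max (x / lam - δ) 0 with hr
    have hr0 : 0 ≤ r := le_max_right _ _
    have h1 : x / lam ≤ r + δ := by
      have := le_max_left (x / lam - δ) 0
      linarith
    have p1 : 0 < r + δ := by linarith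
    have h2 : x / (r + δ) ≤ lam := by
      rw [div_le_iff₀ p1, mul_comm]
      rwa [div_le_iff₀ h] at h1
    have h3 := Af_two_point hx hy hδ hε hr0 hr'
    have h4 : Real.log (1 + x / (r + δ) + y / (r' + ε)) ≤ Real.log (1 + lam + y / (r' + ε)) :=
      Real.log_le_log (by positivity) (by linarith)
    linarith

/-- `φ̂(λ) ≥ A(r)` when `λ > p(r)` -/
theorem le_ph (hx : 0 < x) (hy : 0 < y) (hδ : 0 < δ) (hε : 0 < ε) {lam r : ℝ} (hr : 0 ≤ r)
    (h : x / (r + δ) < lam) : Af x y δ ε r ≤ ph x y δ ε lam := by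
  have p1 : 0 < r + δ := by linarith
  have hl : 0 < lam := lt_trans (by positivity) h
  unfold ph
  rw [if_neg (not_le.2 hl)]
  apply Af_antitone hx hy hδ hε (mem_Ici.2 (le_max_right _ _)) (mem_Ici.2 hr)
  apply max_le _ hr
  rw [div_lt_iff₀ p1] at h
  have : x / lam ≤ r + δ := by
    rw [div_le_iff₀ hl]
    linarith
  linarith

theorem log_jensen {ι : Type*} [Fintype ι] {w z : ι → ℝ} (hw : ∀ j, 0 ≤ w j)
    (h1 : ∑ j, w j = 1) (hz : ∀ j, 0 < z j) :
    ∑ j, w j * Real.log (z j) ≤ Real.log (∑ j, w j * z j) := by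
  have := strictConcaveOn_log_Ioi.concaveOn.le_map_sum (t := Finset.univ) (w := w) (p := z)
    (fun i _ => hw i) h1 (fun i _ => mem_Ioi.2 (hz i))
  simpa [smul_eq_mul] using this

theorem avg_aux (hx : 0 < x) (hy : 0 < y) (hδ : 0 < δ) (hε : 0 < ε) {ι : Type*} [Fintype ι]
    {w l : ι → ℝ} (hw : ∀ j, 0 ≤ w j) (h1 : ∑ j, w j = 1) (hl : ∀ j, 0 ≤ l j) {r : ℝ}
    (hr : 0 ≤ r) :
    ∑ j, w j * ph x y δ ε (l j)
      ≤ Real.log (1 + ∑ j, w j * l j + y / (r + ε)) - Af y x ε δ r := by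
  have p4 : 0 < r + ε := by linarith
  have a1 : ∑ j, w j * ph x y δ ε (l j)
      ≤ ∑ j, w j * (Real.log (1 + l j + y / (r + ε)) - Af y x ε δ r) :=
    Finset.sum_le_sum fun j _ =>
      mul_le_mul_of_nonneg_left (ph_le_log hx hy hδ hε (hl j) hr) (hw j)
  have a2 : ∑ j, w j * (Real.log (1 + l j + y / (r + ε)) - Af y x ε δ r)
      = ∑ j, w j * Real.log (1 + l j + y / (r + ε)) - Af y x ε δ r := by
    simp only [mul_sub, Finset.sum_sub_distrib, ← Finset.sum_mul, h1, one_mul]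
  have a3 := log_jensen (z := fun j => 1 + l j + y / (r + ε)) hw h1 (fun j => by
    have := hl j; positivity)
  have a4 : ∑ j, w j * (1 + l j + y / (r + ε)) = 1 + ∑ j, w j * l j + y / (r + ε) := by
    simp only [mul_add, Finset.sum_add_distrib, ← Finset.sum_mul, h1, mul_one, one_mul]
  rw [a4] at a3
  linarith

theorem avg_zero {ι : Type*} [Fintype ι] {w l : ι → ℝ} (hw : ∀ j, 0 ≤ w j)
    (hl : ∀ j, 0 ≤ l j) (h : ∑ j, w j * l j = 0) (x y δ ε : ℝ) :
    ∑ j, w j * ph x y δ ε (l j) = 0 := by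
  apply Finset.sum_eq_zero
  intro j _
  have := (Finset.sum_eq_zero_iff_of_nonneg (fun i _ => mul_nonneg (hw i) (hl i))).1 h j
    (Finset.mem_univ j)
  rcases mul_eq_zero.1 this with h0 | h0
  · rw [h0, zero_mul]
  · rw [h0, ph_zero, mul_zero]

theorem avg_le (hx : 0 < x) (hy : 0 < y) (hδ : 0 < δ) (hε : 0 < ε) {ι : Type*} [Fintype ι]
    {w l : ι → ℝ} (hw : ∀ j, 0 ≤ w j) (h1 : ∑ j, w j = 1) :
    ∑ j, w j * ph x y δ ε (l j) ≤ Af x y δ ε 0 := by
  calc ∑ j, w j * ph x y δ ε (l j) ≤ ∑ j, w j * Af x y δ ε 0 :=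
        Finset.sum_le_sum fun j _ => mul_le_mul_of_nonneg_left (ph_le hx hy hδ hε _) (hw j)
    _ = _ := by rw [← Finset.sum_mul, h1, one_mul]

/-- first case of the domination-Jensen inequality -/
theorem jensen_case (hx : 0 < x) (hy : 0 < y) (hδ : 0 < δ) (hε : 0 < ε) {ι κ : Type*} [Fintype ι]
    [Fintype κ] {w l : ι → ℝ} {w' l' : κ → ℝ} (hw : ∀ j, 0 ≤ w j) (hw' : ∀ j, 0 ≤ w' j)
    (hl : ∀ j, 0 ≤ l j) (hl' : ∀ j, 0 ≤ l' j) (h1 : ∑ j, w j = 1) (h1' : ∑ j, w' j = 1)
    (hp : 0 < ∑ j, w j * l j) (hp' : ∑ j, w j * l j < x / δ) :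
    ∑ j, w j * ph x y δ ε (l j) + ∑ j, w' j * ph y x ε δ (l' j)
      ≤ Real.log (1 + ∑ j, w j * l j + ∑ j, w' j * l' j) := by
  set pb := ∑ j, w j * l j with hpb
  set r := x / pb - δ with hr
  have hr0 : 0 ≤ r := by
    rw [lt_div_iff₀ hδ] at hp'
    have : δ ≤ x / pb := by
      rw [le_div_iff₀ hp]; linarith
    rw [hr]; linarith
  have hpr : x / (r + δ) = pb := by
    rw [hr, sub_add_cancel]
    field_simp
  have a1 := avg_aux hx hy hδ hε hw h1 hl hr0
  have a2 := avg_aux hy hx hε hδ hw' h1' hl' hr0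
  have a3 := Af_add hx hy hδ hε hr0
  rw [← hpb] at a1
  rw [hpr] at a2 a3
  have a4 : 1 + ∑ j, w' j * l' j + pb = 1 + pb + ∑ j, w' j * l' j := by ring
  rw [a4] at a2
  linarith

theorem jensen (hx : 0 < x) (hy : 0 < y) (hδ : 0 < δ) (hε : 0 < ε) {ι κ : Type*} [Fintype ι]
    [Fintype κ] {w l : ι → ℝ} {w' l' : κ → ℝ} (hw : ∀ j, 0 ≤ w j) (hw' : ∀ j, 0 ≤ w' j)
    (hl : ∀ j, 0 ≤ l j) (hl' : ∀ j, 0 ≤ l' j) (h1 : ∑ j, w j = 1) (h1' : ∑ j, w' j = 1) :
    ∑ j, w j * ph x y δ ε (l j) + ∑ j, w' j * ph y x ε δ (l' j)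
      ≤ Real.log (1 + ∑ j, w j * l j + ∑ j, w' j * l' j) := by
  have hp0 : 0 ≤ ∑ j, w j * l j := Finset.sum_nonneg fun j _ => mul_nonneg (hw j) (hl j)
  have hq0 : 0 ≤ ∑ j, w' j * l' j := Finset.sum_nonneg fun j _ => mul_nonneg (hw' j) (hl' j)
  by_cases c1 : 0 < ∑ j, w j * l j ∧ ∑ j, w j * l j < x / δ
  · exact jensen_case hx hy hδ hε hw hw' hl hl' h1 h1' c1.1 c1.2
  by_cases c2 : 0 < ∑ j, w' j * l' j ∧ ∑ j, w' j * l' j < y / ε
  · have := jensen_case hy hx hε hδ hw' hw hl' hl h1' h1 c2.1 c2.2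
    have e : 1 + ∑ j, w' j * l' j + ∑ j, w j * l j
      = 1 + ∑ j, w j * l j + ∑ j, w' j * l' j := by ring
    rw [e] at this
    linarith
  have d1 : ∑ j, w j * l j = 0 ∨ x / δ ≤ ∑ j, w j * l j := by
    rcases hp0.eq_or_lt with h | h
    · exact Or.inl h.symm
    · right
      by_contra h'
      exact c1 ⟨h, not_le.1 h'⟩
  have d2 : ∑ j, w' j * l' j = 0 ∨ y / ε ≤ ∑ j, w' j * l' j := by
    rcases hq0.eq_or_lt with h | h
    · exact Or.inl h.symm
    · right
      by_contra h'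
      exact c2 ⟨h, not_le.1 h'⟩
  have hxδ : 0 < x / δ := by positivity
  have hyε : 0 < y / ε := by positivity
  rcases d1 with d1 | d1 <;> rcases d2 with d2 | d2
  · rw [avg_zero hw hl d1, avg_zero hw' hl' d2, d1, d2]
    simp
  · rw [avg_zero hw hl d1, d1]
    have a1 := avg_le (l := l') hy hx hε hδ hw' h1'
    have a2 := Af_le_log hy hx hε hδ (le_refl (0 : ℝ))
    rw [zero_add] at a2
    have a3 : Real.log (1 + y / ε) ≤ Real.log (1 + 0 + ∑ j, w' j * l' j) :=
      Real.log_le_log (by positivity) (by linarith)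
    rw [zero_add]
    exact a1.trans (a2.trans a3)
  · rw [avg_zero hw' hl' d2, d2]
    have a1 := avg_le (l := l) hx hy hδ hε hw h1
    have a2 := Af_le_log hx hy hδ hε (le_refl (0 : ℝ))
    rw [zero_add] at a2
    have a3 : Real.log (1 + x / δ) ≤ Real.log (1 + ∑ j, w j * l j + 0) :=
      Real.log_le_log (by positivity) (by linarith)
    rw [add_zero]
    exact a1.trans (a2.trans a3)
  · have a1 := avg_le (l := l) hx hy hδ hε hw h1
    have a2 := avg_le (l := l') hy hx hε hδ hw' h1'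
    have a3 := Af_add hx hy hδ hε (le_refl (0 : ℝ))
    rw [zero_add, zero_add] at a3
    have a4 : Real.log (1 + x / δ + y / ε)
        ≤ Real.log (1 + ∑ j, w j * l j + ∑ j, w' j * l' j) :=
      Real.log_le_log (by positivity) (by linarith)
    linarith

/-- the level weights -/
noncomputable def wt (f : ℕ → ℝ) (N k : ℕ) : ℝ := if k < N then f k - f (k + 1) else f k

theorem wt_sum (f J : ℕ → ℝ) (N : ℕ) :
    ∑ k ∈ Finset.range (N + 1), wt f N k * J k
      = ∑ k ∈ Finset.range N, (f k - f (k + 1)) * J k + f N * J N := by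
  rw [Finset.sum_range_succ]
  congr 1
  · apply Finset.sum_congr rfl
    intro k hk
    rw [wt, if_pos (Finset.mem_range.1 hk)]
  · rw [wt, if_neg (lt_irrefl N)]

theorem wt_succ (f J : ℕ → ℝ) (N : ℕ) :
    ∑ k ∈ Finset.range (N + 2), wt f (N + 1) k * J k
      = ∑ k ∈ Finset.range (N + 1), wt f N k * J k + f (N + 1) * (J (N + 1) - J N) := by
  rw [wt_sum, wt_sum, Finset.sum_range_succ]
  ring

theorem wt_total (f : ℕ → ℝ) (N : ℕ) : ∑ k ∈ Finset.range (N + 1), wt f N k = f 0 := by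
  induction N with
  | zero => simp [wt]
  | succ N ih =>
    have := wt_succ f (fun _ => 1) N
    simp only [mul_one, sub_self, mul_zero, add_zero] at this
    rw [this, ih]

theorem wt_nonneg {f : ℕ → ℝ} (hf : Antitone f) (hf0 : ∀ k, 0 ≤ f k) (N k : ℕ) :
    0 ≤ wt f N k := by
  unfold wt
  split_ifs
  · have := hf (Nat.le_succ k)
    linarith
  · exact hf0 k

/-- level decomposition of `φ̂` -/
theorem level_le (hx : 0 < x) (hy : 0 < y) (hδ : 0 < δ) (hε : 0 < ε) {h : ℝ} (hh : 0 < h)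
    (N : ℕ) (lam : ℝ) :
    ∑ k ∈ Finset.range (N + 1), wt (fun k => Af x y δ ε (k * h)) N k *
      (if x / (k * h + δ) < lam then 1 else 0) ≤ ph x y δ ε lam := by
  set J : ℕ → ℝ := fun k => if x / (k * h + δ) < lam then 1 else 0 with hJ
  set f : ℕ → ℝ := fun k => Af x y δ ε (k * h) with hf
  have hJm : ∀ k, J k = 1 → J (k + 1) = 1 := by
    intro k hk
    simp only [hJ] at hk ⊢
    split_ifs at hk with h1
    · rw [if_pos]
      refine lt_of_le_of_lt ?_ h1
      apply div_le_div_of_nonneg_left hx.le (by positivity)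
      push_cast
      nlinarith
    · norm_num at hk
  have hJ01 : ∀ k, J k = 0 ∨ J k = 1 := by
    intro k
    simp only [hJ]
    split_ifs <;> simp
  have key : ∀ N : ℕ, (J N = 0 → ∑ k ∈ Finset.range (N + 1), wt f N k * J k = 0) ∧
      ∑ k ∈ Finset.range (N + 1), wt f N k * J k ≤ ph x y δ ε lam := by
    intro N
    induction N with
    | zero =>
      constructor
      · intro h0
        simp [h0]
      · simp only [zero_add, Finset.range_one, Finset.sum_singleton]
        rcases hJ01 0 with h0 | h0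
        · rw [h0, mul_zero]; exact ph_nonneg hx hy hδ hε _
        · have h1 : x / (((0 : ℕ) : ℝ) * h + δ) < lam := by
            by_contra hc
            simp only [hJ, if_neg hc] at h0
            norm_num at h0
          have := le_ph hx hy hδ hε (r := ((0 : ℕ) : ℝ) * h) (by positivity) h1
          rw [h0, mul_one]
          simpa [wt, hf] using this
    | succ N ih =>
      rw [wt_succ]
      rcases hJ01 N with h0 | h0
      · rw [ih.1 h0, h0, sub_zero, zero_add]
        refine ⟨fun h1 => by rw [h1, mul_zero], ?_⟩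
        rcases hJ01 (N + 1) with h2 | h2
        · rw [h2, mul_zero]; exact ph_nonneg hx hy hδ hε _
        · have h1 : x / (((N + 1 : ℕ) : ℝ) * h + δ) < lam := by
            by_contra hc
            simp only [hJ, if_neg hc] at h2
            norm_num at h2
          have := le_ph hx hy hδ hε (r := ((N + 1 : ℕ) : ℝ) * h) (by positivity) h1
          rw [h2, mul_one]
          exact this
      · have h1 := hJm N h0
        refine ⟨fun h2 => by rw [h1] at h2; norm_num at h2, ?_⟩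
        rw [h0, h1, sub_self, mul_zero, add_zero]
        exact ih.2
  exact (key N).2

/-- Riemann-sum lower bound -/
theorem riemann_lower (hx : 0 < x) (hy : 0 < y) (hδ : 0 < δ) (hε : 0 < ε) {h ξ T : ℝ}
    (hh : 0 < h) (hξ : 0 ≤ ξ) (hT : 0 ≤ T) (N : ℕ) :
    Af x y δ ε 0 * (δ * ξ) + ξ * (AA x y δ ε (min ((N + 1) * h) T) - AA x y δ ε h)
      ≤ ∑ k ∈ Finset.range (N + 1), wt (fun k => Af x y δ ε (k * h)) N k *
          min ((k * h + δ) * ξ) ((T + δ) * ξ) := by
  induction N with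
  | zero =>
    simp only [zero_add, Finset.range_one, Finset.sum_singleton, Nat.cast_zero, zero_mul, one_mul]
    have h1 : min (δ * ξ) ((T + δ) * ξ) = δ * ξ := by
      apply min_eq_left
      apply mul_le_mul_of_nonneg_right _ hξ
      linarith
    have h2 : AA x y δ ε (min h T) ≤ AA x y δ ε h :=
      AA_mono hx hy hδ hε (mem_Ici.2 (le_min hh.le hT)) (mem_Ici.2 hh.le) (min_le_left _ _)
    rw [h1]
    simp only [wt, lt_irrefl, if_false, Nat.cast_zero, zero_mul]
    nlinarith [mul_nonneg hξ (sub_nonneg.2 h2)]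
  | succ N ih =>
    rw [wt_succ]
    have hN1 : ((N + 1 : ℕ) : ℝ) = (N : ℝ) + 1 := by push_cast; ring
    rw [hN1]
    have hr0 : 0 ≤ ((N : ℝ) + 1) * h := by positivity
    have hA0 := Af_nonneg hx hy hδ hε hr0
    rcases le_total T (((N : ℝ) + 1) * h) with hc | hc
    · have m1 : min (((N : ℝ) + 1) * h) T = T := min_eq_right hc
      have m2 : min (((N : ℝ) + 1 + 1) * h) T = T := by
        apply min_eq_right
        nlinarith
      rw [m2]
      rw [m1] at ih
      have m3 : min (((N : ℝ) * h + δ) * ξ) ((T + δ) * ξ)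
          ≤ min ((((N : ℝ) + 1) * h + δ) * ξ) ((T + δ) * ξ) := by
        apply min_le_min_right
        apply mul_le_mul_of_nonneg_right _ hξ
        nlinarith
      have := mul_nonneg hA0 (sub_nonneg.2 m3)
      linarith
    · have m1 : min (((N : ℝ) + 1) * h) T = ((N : ℝ) + 1) * h := min_eq_left hc
      rw [m1] at ih
      have m2 : min ((((N : ℝ) + 1) * h + δ) * ξ) ((T + δ) * ξ) = (((N : ℝ) + 1) * h + δ) * ξ := by
        apply min_eq_left
        apply mul_le_mul_of_nonneg_right _ hξ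
        linarith
      have m3 : min (((N : ℝ) * h + δ) * ξ) ((T + δ) * ξ) = ((N : ℝ) * h + δ) * ξ := by
        apply min_eq_left
        apply mul_le_mul_of_nonneg_right _ hξ
        nlinarith
      rw [m2, m3]
      set v := min (((N : ℝ) + 1 + 1) * h) T with hv
      have hv1 : ((N : ℝ) + 1) * h ≤ v := le_min (by nlinarith) hc
      have hv2 : v - ((N : ℝ) + 1) * h ≤ h := by
        have := min_le_left (((N : ℝ) + 1 + 1) * h) T
        rw [← hv] at this
        linarith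
      have h1 := AA_sub_le hx hy hδ hε hr0 hv1
      have h2 : Af x y δ ε (((N : ℝ) + 1) * h) * (v - ((N : ℝ) + 1) * h)
          ≤ Af x y δ ε (((N : ℝ) + 1) * h) * h := mul_le_mul_of_nonneg_left hv2 hA0
      have h3 : ξ * (AA x y δ ε v - AA x y δ ε (((N : ℝ) + 1) * h))
          ≤ ξ * (Af x y δ ε (((N : ℝ) + 1) * h) * h) :=
        mul_le_mul_of_nonneg_left (h1.trans h2) hξ
      linarith

end

end Vale.Agent.H19.GAD
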