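import Vale.Agent.H19.GAD.MatLem2
import Vale.Agent.H19.GAD.Jensen
import Vale.Agent.H19.GAD.Integ

open Matrix Complex
open scoped ComplexOrder

namespace Vale.Agent.H19.GAD

open Vale.Agent.H28

section

variable {X Z : Type*} [Fintype X] [DecidableEq X] [Fintype Z] [DecidableEq Z]

theorem psd_factor {A : Matrix Z Z ℂ} (hA : A.PosSemidef) : ∃ G : Matrix Z Z ℂ, Gᴴ * G = A := by
  obtain ⟨U, h1, h2, h3⟩ := spectral' hA.isHermitian
  set l := hA.isHermitian.eigenvalues with hl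
  refine ⟨diagonal (fun i => (Real.sqrt (l i) : ℂ)) * Uᴴ, ?_⟩
  rw [conjTranspose_mul, conjTranspose_conjTranspose, diagonal_conjTranspose, Matrix.mul_assoc,
    ← Matrix.mul_assoc (diagonal _) (diagonal _), diagonal_mul_diagonal]
  conv_rhs => rw [h3]
  rw [Matrix.mul_assoc]
  congr 3
  funext i
  simp only [Pi.star_apply]
  rw [show star ((Real.sqrt (l i) : ℂ)) = (Real.sqrt (l i) : ℂ) by simp,
    ← Complex.ofReal_mul, Real.mul_self_sqrt (hA.eigenvalues_nonneg i)]

theorem det_re_pos {A : Matrix Z Z ℂ} (hA : A.PosSemidef) {s : ℝ} (hs : 0 < s) :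
    ((s : ℂ) • (1 : Matrix Z Z ℂ) + A).det
      = ((∏ i, (s + hA.isHermitian.eigenvalues i) : ℝ) : ℂ) ∧
    0 < ∏ i, (s + hA.isHermitian.eigenvalues i) ∧
    Real.log (∏ i, (s + hA.isHermitian.eigenvalues i))
      = ∑ i, Real.log (s + hA.isHermitian.eigenvalues i) := by
  have hp : ∀ i, 0 < s + hA.isHermitian.eigenvalues i := fun i => by
    have := hA.eigenvalues_nonneg i
    positivity
  exact ⟨det_add_eq hA.isHermitian s, Finset.prod_pos fun i _ => hp i,
    Real.log_prod fun i _ => (hp i).ne'⟩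

omit [DecidableEq X] [DecidableEq Z] in
/-- count comparison, converted to the functions `φ̂` -/
theorem count_to_ph {x y δ ε : ℝ} (hx : 0 < x) (hy : 0 < y) (hδ : 0 < δ) (hε : 0 < ε) {h : ℝ}
    (hh : 0 < h) (N : ℕ) {s : ℝ} (μ : ℕ → X → ℝ) (l : Z → ℝ)
    (hc : ∀ k : ℕ, (Finset.univ.filter (fun j => s < μ k j)).card
      ≤ (Finset.univ.filter (fun i => x / (k * h + δ) < l i)).card) :
    ∑ k ∈ Finset.range (N + 1), wt (fun k => Af x y δ ε (k * h)) N k *
        ∑ j, (if s < μ k j then (1 : ℝ) else 0) ≤ ∑ i, ph x y δ ε (l i) := by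
  have hwt : ∀ k, 0 ≤ wt (fun k => Af x y δ ε (k * h)) N k := by
    intro k
    apply wt_nonneg
    · intro a b hab
      apply Af_antitone hx hy hδ hε
      · exact Set.mem_Ici.2 (by positivity)
      · exact Set.mem_Ici.2 (by positivity)
      · have : (a : ℝ) ≤ b := by exact_mod_cast hab
        exact mul_le_mul_of_nonneg_right this hh.le
    · intro k
      exact Af_nonneg hx hy hδ hε (by positivity)
  calc ∑ k ∈ Finset.range (N + 1), wt (fun k => Af x y δ ε (k * h)) N k *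
        ∑ j, (if s < μ k j then (1 : ℝ) else 0)
      ≤ ∑ k ∈ Finset.range (N + 1), wt (fun k => Af x y δ ε (k * h)) N k *
        ∑ i, (if x / (k * h + δ) < l i then (1 : ℝ) else 0) := by
        apply Finset.sum_le_sum
        intro k _
        apply mul_le_mul_of_nonneg_left _ (hwt k)
        rw [Finset.sum_boole, Finset.sum_boole]
        exact_mod_cast hc k
    _ = ∑ i, ∑ k ∈ Finset.range (N + 1), wt (fun k => Af x y δ ε (k * h)) N k *
          (if x / (k * h + δ) < l i then (1 : ℝ) else 0) := by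
        rw [Finset.sum_comm]
        apply Finset.sum_congr rfl
        intro k _
        rw [Finset.mul_sum]
    _ ≤ _ := Finset.sum_le_sum fun i _ => level_le hx hy hδ hε hh N (l i)

theorem level_ineq {α Y β D E : Matrix X X ℂ} (hρ : (fromBlocks α Y Yᴴ β).PosSemidef)
    (hD : D.PosSemidef) (hE : E.PosSemidef) {x y δ ε : ℝ} (hx : 0 < x) (hy : 0 < y)
    (hδ : 0 < δ) (hε : 0 < ε) (hM : (fromBlocks (α + D) Y Yᴴ (β + E)).PosSemidef)
    {h : ℝ} (hh : 0 < h) (N : ℕ) {H1 H2 : ℕ → Matrix X X ℂ} (hH1 : ∀ k, (H1 k).IsHermitian)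
    (hH2 : ∀ k, (H2 k).IsHermitian)
    (hH1e : ∀ k : ℕ, H1 k = (((x / (k * h + δ))⁻¹ : ℝ) : ℂ) • α - D)
    (hH2e : ∀ k : ℕ, H2 k = (((y / (k * h + ε))⁻¹ : ℝ) : ℂ) • β - E) {s : ℝ} (hs : 0 < s) :
    ∑ k ∈ Finset.range (N + 1), wt (fun k => Af x y δ ε (k * h)) N k *
        ∑ j, (if s < (hH1 k).eigenvalues j then (1 : ℝ) else 0)
      + ∑ k ∈ Finset.range (N + 1), wt (fun k => Af y x ε δ (k * h)) N k *
        ∑ j, (if s < (hH2 k).eigenvalues j then (1 : ℝ) else 0)
      ≤ ∑ i, Real.log (s + hM.isHermitian.eigenvalues i)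
        - ∑ i, Real.log (s + hD.isHermitian.eigenvalues i)
        - ∑ i, Real.log (s + hE.isHermitian.eigenvalues i) := by
  have hα : α.PosSemidef := hρ.submatrix (Sum.inl : X → X ⊕ X)
  have hβ : β.PosSemidef := hρ.submatrix (Sum.inr : X → X ⊕ X)
  obtain ⟨G, hG⟩ := psd_factor hρ
  set A := (s : ℂ) • (1 : Matrix X X ℂ) + D with hA
  set B := (s : ℂ) • (1 : Matrix X X ℂ) + E with hB
  have hApd : A.PosDef := (smul_one_posDef hs).add_posSemidef hD
  have hBpd : B.PosDef := (smul_one_posDef hs).add_posSemidef hE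
  have hP : (G * b1 A⁻¹ * Gᴴ).PosSemidef := blk1_psd hApd.inv.posSemidef G
  have hQ : (G * b2 B⁻¹ * Gᴴ).PosSemidef := blk2_psd hBpd.inv.posSemidef G
  have hC2 := log_det_lower hP hQ (f := ph x y δ ε) (g := ph y x ε δ)
    (fun w w' l l' hw hw' hl hl' h1 h1' => jensen hx hy hδ hε hw hw' hl hl' h1 h1')
  have hsplit := det_split hApd hBpd G
  have hMe : fromBlocks A 0 0 B + Gᴴ * G
      = (s : ℂ) • (1 : Matrix (X ⊕ X) (X ⊕ X) ℂ) + fromBlocks (α + D) Y Yᴴ (β + E) := by
    rw [hG, ← fromBlocks_one, fromBlocks_smul, fromBlocks_add, fromBlocks_add, hA, hB]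
    congr 1
    · abel
    · simp
    · simp
    · abel
  rw [hMe] at hsplit
  obtain ⟨m1, m2, m3⟩ := det_re_pos hM hs
  obtain ⟨d1, d2, d3⟩ := det_re_pos hD hs
  obtain ⟨e1, e2, e3⟩ := det_re_pos hE hs
  have d1' : A.det = ((∏ i, (s + hD.isHermitian.eigenvalues i) : ℝ) : ℂ) := d1
  have e1' : B.det = ((∏ i, (s + hE.isHermitian.eigenvalues i) : ℝ) : ℂ) := e1
  rw [m1, d1', e1'] at hsplit
  have hre := congrArg Complex.re hsplit
  rw [← Complex.ofReal_mul, Complex.re_ofReal_mul, Complex.ofReal_re] at hre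
  have hZ : 0 < (1 + (G * b1 A⁻¹ * Gᴴ + G * b2 B⁻¹ * Gᴴ)).det.re := by
    have h1 : 0 < (∏ i, (s + hD.isHermitian.eigenvalues i))
        * (∏ i, (s + hE.isHermitian.eigenvalues i)) := mul_pos d2 e2
    rw [hre] at m2
    exact (mul_pos_iff_of_pos_left h1).1 m2
  have hlog := congrArg Real.log hre
  rw [Real.log_mul (mul_pos d2 e2).ne' hZ.ne', Real.log_mul d2.ne' e2.ne', m3, d3, e3] at hlog
  have c1 := count_to_ph hx hy hδ hε hh N (s := s) (fun k => (hH1 k).eigenvalues)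
    hP.isHermitian.eigenvalues (fun k => by
      have hk : 0 < (k : ℝ) * h + δ := by positivity
      exact count1 hs (by positivity) hG hα hD (hH1 k) (hH1e k) hP.isHermitian)
  have c2 := count_to_ph hy hx hε hδ hh N (s := s) (fun k => (hH2 k).eigenvalues)
    hQ.isHermitian.eigenvalues (fun k => by
      have hk : 0 < (k : ℝ) * h + ε := by positivity
      exact count2 hs (by positivity) hG hβ hE (hH2 k) (hH2e k) hQ.isHermitian)
  linarith

end

end Vale.Agent.H19.GAD
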