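import Vale.Agent.H19.GAD.Jensen

open Filter Topology Set

namespace Vale.Agent.H19.GAD

open Vale.Agent.H28

section

variable {x y δ ε : ℝ}

/-- single-site lower bound -/
theorem site_lower (hx : 0 < x) (hy : 0 < y) (hδ : 0 < δ) (hε : 0 < ε) {h ξ R : ℝ}
    (hh : 0 < h) (hξ : 0 ≤ ξ) (hR0 : 0 ≤ R) (hR : δ * ξ ≤ R) {N : ℕ}
    (hN : R / ξ ≤ N * h) :
    Af x y δ ε 0 * (δ * ξ) + ξ * (AA x y δ ε (R / ξ - δ) - AA x y δ ε h)
      ≤ ∑ k ∈ Finset.range (N + 1), wt (fun k => Af x y δ ε (k * h)) N k *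
          min ((k * h + δ) * ξ) R := by
  rcases hξ.eq_or_lt with h0 | h0
  · rw [← h0]
    simp [min_eq_left hR0]
  · have hT : 0 ≤ R / ξ - δ := by
      rw [sub_nonneg, le_div_iff₀ h0]
      exact hR
    have key := riemann_lower hx hy hδ hε hh hξ hT N
    have e1 : (R / ξ - δ + δ) * ξ = R := by
      rw [sub_add_cancel]
      field_simp
    rw [e1] at key
    have e2 : min (((N : ℝ) + 1) * h) (R / ξ - δ) = R / ξ - δ := by
      apply min_eq_right
      linarith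
    rw [e2] at key
    exact key

theorem side_lower (hx : 0 < x) (hy : 0 < y) (hδ : 0 < δ) (hε : 0 < ε) {X : Type*} [Fintype X]
    {h R : ℝ} (hh : 0 < h) (hR0 : 0 ≤ R) (hR : δ ≤ R) {ξ : X → ℝ} (hξ : ∀ j, 0 ≤ ξ j)
    (hξ1 : ∑ j, ξ j = 1) {N : ℕ} (hN : ∀ j, R / ξ j ≤ N * h) :
    ∑ j, ξ j * AA x y δ ε (R / ξ j - δ) - AA x y δ ε h
      ≤ ∑ k ∈ Finset.range (N + 1), wt (fun k => Af x y δ ε (k * h)) N k *
          (∑ j, min ((k * h + δ) * ξ j) R - δ) := by
  have hle1 : ∀ j, ξ j ≤ 1 := fun j => by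
    rw [← hξ1]
    exact Finset.single_le_sum (f := ξ) (fun i _ => hξ i) (Finset.mem_univ j)
  have hs := Finset.sum_le_sum (fun j (_ : j ∈ Finset.univ) =>
    site_lower hx hy hδ hε hh (hξ j) hR0 (by nlinarith [hle1 j] : δ * ξ j ≤ R) (hN j))
  rw [Finset.sum_comm] at hs
  have e1 : ∑ j, (Af x y δ ε 0 * (δ * ξ j) + ξ j * (AA x y δ ε (R / ξ j - δ) - AA x y δ ε h))
      = Af x y δ ε 0 * δ + ∑ j, ξ j * AA x y δ ε (R / ξ j - δ) - AA x y δ ε h := by
    simp only [Finset.sum_add_distrib, mul_sub, Finset.sum_sub_distrib, ← Finset.mul_sum,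
      ← Finset.sum_mul, hξ1]
    ring
  have e2 : ∑ k ∈ Finset.range (N + 1), wt (fun k => Af x y δ ε (k * h)) N k *
          (∑ j, min ((k * h + δ) * ξ j) R - δ)
      = ∑ k ∈ Finset.range (N + 1), ∑ j, wt (fun k => Af x y δ ε (k * h)) N k *
          min ((k * h + δ) * ξ j) R - Af x y δ ε 0 * δ := by
    simp only [mul_sub, Finset.sum_sub_distrib, ← Finset.sum_mul, wt_total, Finset.mul_sum]
    simp
  rw [e1] at hs
  rw [e2]
  linarith

/-- the single-site term at height `R` -/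
noncomputable def KK (x y δ ε R ξ : ℝ) : ℝ :=
  th x y δ ε * ((R + ξ * (lP x y δ ε - δ)) * Real.log (R + ξ * (lP x y δ ε - δ)))
    + (1 - th x y δ ε) * ((R + ξ * (lM x y δ ε - δ)) * Real.log (R + ξ * (lM x y δ ε - δ)))
    - R * Real.log R

theorem KK_eq (hx : 0 < x) (hy : 0 < y) (hδ : 0 < δ) (hε : 0 < ε) {ξ R : ℝ} (hξ : 0 ≤ ξ)
    (hR0 : 0 < R) (hR : δ * ξ ≤ R) :
    ξ * AA x y δ ε (R / ξ - δ) = KK x y δ ε R ξ + x * Real.negMulLog ξ := by
  rcases hξ.eq_or_lt with h0 | h0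
  · rw [← h0]
    unfold KK
    simp
    ring
  · have hT : 0 ≤ R / ξ - δ := by
      rw [sub_nonneg, le_div_iff₀ h0]
      exact hR
    have hP := lP_pos (ε := ε) hx hy hδ
    have hM := lM_pos hx hy hδ hε
    have a1 : R / ξ - δ + lP x y δ ε = (R + ξ * (lP x y δ ε - δ)) / ξ := by
      field_simp
      ring
    have a2 : R / ξ - δ + lM x y δ ε = (R + ξ * (lM x y δ ε - δ)) / ξ := by
      field_simp
      ring
    have b1 : 0 < R + ξ * (lP x y δ ε - δ) := by
      have : 0 < (R + ξ * (lP x y δ ε - δ)) / ξ := by rw [← a1]; linarith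
      exact (div_pos_iff_of_pos_right h0).1 this
    have b2 : 0 < R + ξ * (lM x y δ ε - δ) := by
      have : 0 < (R + ξ * (lM x y δ ε - δ)) / ξ := by rw [← a2]; linarith
      exact (div_pos_iff_of_pos_right h0).1 this
    have hmean := th_mean (δ := δ) (ε := ε) hx hy
    unfold AA KK
    rw [sub_add_cancel, a1, a2, Real.log_div b1.ne' h0.ne', Real.log_div b2.ne' h0.ne',
      Real.log_div hR0.ne' h0.ne', Real.negMulLog]
    have c1 : ξ * (th x y δ ε * ((R + ξ * (lP x y δ ε - δ)) / ξ *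
          (Real.log (R + ξ * (lP x y δ ε - δ)) - Real.log ξ)) +
        (1 - th x y δ ε) * ((R + ξ * (lM x y δ ε - δ)) / ξ *
          (Real.log (R + ξ * (lM x y δ ε - δ)) - Real.log ξ)) -
        R / ξ * (Real.log R - Real.log ξ))
        = th x y δ ε * ((R + ξ * (lP x y δ ε - δ)) *
          (Real.log (R + ξ * (lP x y δ ε - δ)) - Real.log ξ)) +
        (1 - th x y δ ε) * ((R + ξ * (lM x y δ ε - δ)) *
          (Real.log (R + ξ * (lM x y δ ε - δ)) - Real.log ξ)) -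
        R * (Real.log R - Real.log ξ) := by
      field_simp
    rw [c1]
    have c2 : x = th x y δ ε * lP x y δ ε + (1 - th x y δ ε) * lM x y δ ε - δ := by
      rw [hmean]; ring
    generalize Real.log (R + ξ * (lP x y δ ε - δ)) = L1 at *
    generalize Real.log (R + ξ * (lM x y δ ε - δ)) = L2 at *
    linear_combination (ξ * Real.log ξ) * c2

theorem AA_zero_add (hx : 0 < x) (hy : 0 < y) :
    AA x y δ ε 0 + AA y x ε δ 0 = -(Real.negMulLog (lP x y δ ε) + Real.negMulLog (lM x y δ ε))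
      + Real.negMulLog δ + Real.negMulLog ε := by
  unfold AA
  rw [th_swap hx hy, lP_swap, lM_swap]
  simp only [Real.negMulLog, zero_add]
  ring

end

end Vale.Agent.H19.GAD
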