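import Vale.Agent.H19.GAD.Level
import Vale.Agent.H19.GAD.Side

open Matrix Complex Filter Topology
open scoped ComplexOrder

namespace Vale.Agent.H19.GAD

open Vale.Agent.H28

section

variable {X : Type*} [Fintype X] [DecidableEq X]

/-- the inequality at height `R`, with mesh `h` -/
theorem height_mesh {α Y β D E : Matrix X X ℂ} (hρ : (fromBlocks α Y Yᴴ β).PosSemidef)
    (hα : α.PosSemidef) (hβ : β.PosSemidef)
    (hD : D.PosSemidef) (hE : E.PosSemidef) (hx : 0 < α.trace.re) (hy : 0 < β.trace.re)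
    (hδ : 0 < D.trace.re) (hε : 0 < E.trace.re)
    (hM : (fromBlocks (α + D) Y Yᴴ (β + E)).PosSemidef) {h R : ℝ} (hh : 0 < h)
    (hR1 : D.trace.re ≤ R) (hR2 : E.trace.re ≤ R) :
    (∑ j, (hα.isHermitian.eigenvalues j / α.trace.re) *
        AA α.trace.re β.trace.re D.trace.re E.trace.re
          (R / (hα.isHermitian.eigenvalues j / α.trace.re) - D.trace.re)
      - AA α.trace.re β.trace.re D.trace.re E.trace.re h)
    + (∑ j, (hβ.isHermitian.eigenvalues j / β.trace.re) *
        AA β.trace.re α.trace.re E.trace.re D.trace.re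
          (R / (hβ.isHermitian.eigenvalues j / β.trace.re) - E.trace.re)
      - AA β.trace.re α.trace.re E.trace.re D.trace.re h)
    ≤ GG hM.isHermitian.eigenvalues hD.isHermitian.eigenvalues hE.isHermitian.eigenvalues R
      - GG hM.isHermitian.eigenvalues hD.isHermitian.eigenvalues hE.isHermitian.eigenvalues 0 := by
  set x := α.trace.re with hxd
  set y := β.trace.re with hyd
  set δ := D.trace.re with hδd
  set ε := E.trace.re with hεd
  set a := hα.isHermitian.eigenvalues with ha
  set b := hβ.isHermitian.eigenvalues with hb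
  have ha0 : ∀ j, 0 ≤ a j := hα.eigenvalues_nonneg
  have hb0 : ∀ j, 0 ≤ b j := hβ.eigenvalues_nonneg
  have hax : ∑ j, a j = x := (trace_re_eq hα.isHermitian).symm
  have hby : ∑ j, b j = y := (trace_re_eq hβ.isHermitian).symm
  have hξ0 : ∀ j, 0 ≤ a j / x := fun j => div_nonneg (ha0 j) hx.le
  have hζ0 : ∀ j, 0 ≤ b j / y := fun j => div_nonneg (hb0 j) hy.le
  have hξ1 : ∑ j, a j / x = 1 := by rw [← Finset.sum_div, hax, div_self hx.ne']
  have hζ1 : ∑ j, b j / y = 1 := by rw [← Finset.sum_div, hby, div_self hy.ne']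
  have hR0 : 0 ≤ R := hδ.le.trans hR1
  -- choice of the number of levels
  obtain ⟨N, hN⟩ := exists_nat_ge ((∑ j, R / (a j / x) + ∑ j, R / (b j / y)) / h)
  have hN' : ∑ j, R / (a j / x) + ∑ j, R / (b j / y) ≤ N * h := by
    rwa [div_le_iff₀ hh] at hN
  have hs1 : ∀ j, 0 ≤ R / (a j / x) := fun j => div_nonneg hR0 (hξ0 j)
  have hs2 : ∀ j, 0 ≤ R / (b j / y) := fun j => div_nonneg hR0 (hζ0 j)
  have hN1 : ∀ j, R / (a j / x) ≤ N * h := fun j => by
    have h1 := Finset.single_le_sum (f := fun j => R / (a j / x)) (fun i _ => hs1 i)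
      (Finset.mem_univ j)
    have h2 : 0 ≤ ∑ j, R / (b j / y) := Finset.sum_nonneg fun i _ => hs2 i
    linarith
  have hN2 : ∀ j, R / (b j / y) ≤ N * h := fun j => by
    have h1 := Finset.single_le_sum (f := fun j => R / (b j / y)) (fun i _ => hs2 i)
      (Finset.mem_univ j)
    have h2 : 0 ≤ ∑ j, R / (a j / x) := Finset.sum_nonneg fun i _ => hs1 i
    linarith
  -- the level matrices
  set H1 : ℕ → Matrix X X ℂ := fun k => (((x / (k * h + δ))⁻¹ : ℝ) : ℂ) • α - D with hH1d
  set H2 : ℕ → Matrix X X ℂ := fun k => (((y / (k * h + ε))⁻¹ : ℝ) : ℂ) • β - E with hH2d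
  have hsm : ∀ (c : ℝ) {A : Matrix X X ℂ}, A.IsHermitian → ((c : ℂ) • A).IsHermitian := by
    intro c A hA
    rw [Matrix.IsHermitian, conjTranspose_smul, hA.eq]
    simp
  have hH1 : ∀ k, (H1 k).IsHermitian := fun k => (hsm _ hα.isHermitian).sub hD.isHermitian
  have hH2 : ∀ k, (H2 k).IsHermitian := fun k => (hsm _ hβ.isHermitian).sub hE.isHermitian
  have hcard : Fintype.card (X ⊕ X) = 2 * Fintype.card X := by rw [Fintype.card_sum]; ring
  -- integrate
  set F : Finset ((ℕ × X) ⊕ (ℕ × X)) :=
    (Finset.range (N + 1) ×ˢ Finset.univ).disjSum (Finset.range (N + 1) ×ˢ Finset.univ) with hF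
  set cf : (ℕ × X) ⊕ (ℕ × X) → ℝ := Sum.elim (fun q => wt (fun k => Af x y δ ε (k * h)) N q.1)
    (fun q => wt (fun k => Af y x ε δ (k * h)) N q.1) with hcf
  set tf : (ℕ × X) ⊕ (ℕ × X) → ℝ := Sum.elim (fun q => (hH1 q.1).eigenvalues q.2)
    (fun q => (hH2 q.1).eigenvalues q.2) with htf
  have hint := int_lower F cf tf hM.eigenvalues_nonneg hD.eigenvalues_nonneg
    hE.eigenvalues_nonneg hcard (by
      intro s hs
      have := level_ineq hρ hD hE hx hy hδ hε hM hh N hH1 hH2 (fun k => rfl) (fun k => rfl) hs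
      refine le_trans (le_of_eq ?_) this
      rw [hF, Finset.sum_disjSum, Finset.sum_product, Finset.sum_product]
      simp only [hcf, htf, Sum.elim_inl, Sum.elim_inr, Finset.mul_sum]) hR0
  refine le_trans ?_ hint
  rw [hF, Finset.sum_disjSum, Finset.sum_product, Finset.sum_product]
  simp only [hcf, htf, Sum.elim_inl, Sum.elim_inr, ← Finset.mul_sum]
  have hwt : ∀ {x y δ ε : ℝ}, 0 < x → 0 < y → 0 < δ → 0 < ε → ∀ k : ℕ,
      0 ≤ wt (fun k => Af x y δ ε (k * h)) N k := by
    intro x y δ ε hx hy hδ hε k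
    apply wt_nonneg
    · intro a b hab
      apply Af_antitone hx hy hδ hε
      · exact Set.mem_Ici.2 (by positivity)
      · exact Set.mem_Ici.2 (by positivity)
      · have : (a : ℝ) ≤ b := by exact_mod_cast hab
        exact mul_le_mul_of_nonneg_right this hh.le
    · intro k
      exact Af_nonneg hx hy hδ hε (by positivity)
  apply add_le_add
  · refine le_trans (side_lower hx hy hδ hε hh hR0 hR1 hξ0 hξ1 hN1) ?_
    apply Finset.sum_le_sum
    intro k _
    apply mul_le_mul_of_nonneg_left _ (hwt hx hy hδ hε k)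
    have := trace_min hα hD (hH1 k) (R := R) rfl
    refine le_trans (le_of_eq ?_) this
    congr 1
    apply Finset.sum_congr rfl
    intro j _
    congr 1
    rw [inv_div]
    ring
  · refine le_trans (side_lower hy hx hε hδ hh hR0 hR2 hζ0 hζ1 hN2) ?_
    apply Finset.sum_le_sum
    intro k _
    apply mul_le_mul_of_nonneg_left _ (hwt hy hx hε hδ k)
    have := trace_min hβ hE (hH2 k) (R := R) rfl
    refine le_trans (le_of_eq ?_) this
    congr 1
    apply Finset.sum_congr rfl
    intro j _
    congr 1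
    rw [inv_div]
    ring

/-- the inequality at height `R` -/
theorem height_ineq {α Y β D E : Matrix X X ℂ} (hρ : (fromBlocks α Y Yᴴ β).PosSemidef)
    (hα : α.PosSemidef) (hβ : β.PosSemidef)
    (hD : D.PosSemidef) (hE : E.PosSemidef) (hx : 0 < α.trace.re) (hy : 0 < β.trace.re)
    (hδ : 0 < D.trace.re) (hε : 0 < E.trace.re)
    (hM : (fromBlocks (α + D) Y Yᴴ (β + E)).PosSemidef) {R : ℝ}
    (hR1 : D.trace.re ≤ R) (hR2 : E.trace.re ≤ R) :
    (∑ j, (hα.isHermitian.eigenvalues j / α.trace.re) *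
        AA α.trace.re β.trace.re D.trace.re E.trace.re
          (R / (hα.isHermitian.eigenvalues j / α.trace.re) - D.trace.re)
      - AA α.trace.re β.trace.re D.trace.re E.trace.re 0)
    + (∑ j, (hβ.isHermitian.eigenvalues j / β.trace.re) *
        AA β.trace.re α.trace.re E.trace.re D.trace.re
          (R / (hβ.isHermitian.eigenvalues j / β.trace.re) - E.trace.re)
      - AA β.trace.re α.trace.re E.trace.re D.trace.re 0)
    ≤ GG hM.isHermitian.eigenvalues hD.isHermitian.eigenvalues hE.isHermitian.eigenvalues R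
      - GG hM.isHermitian.eigenvalues hD.isHermitian.eigenvalues hE.isHermitian.eigenvalues 0 := by
  have c1 := (AA_hasDeriv hx hy hδ hε (le_refl (0 : ℝ))).continuousAt.tendsto
  have c2 := (AA_hasDeriv hy hx hε hδ (le_refl (0 : ℝ))).continuousAt.tendsto
  have hlim := ((c1.const_sub (∑ j, (hα.isHermitian.eigenvalues j / α.trace.re) *
        AA α.trace.re β.trace.re D.trace.re E.trace.re
          (R / (hα.isHermitian.eigenvalues j / α.trace.re) - D.trace.re))).add
    (c2.const_sub (∑ j, (hβ.isHermitian.eigenvalues j / β.trace.re) *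
        AA β.trace.re α.trace.re E.trace.re D.trace.re
          (R / (hβ.isHermitian.eigenvalues j / β.trace.re) - E.trace.re)))).mono_left
    (nhdsWithin_le_nhds (s := Set.Ioi 0))
  refine le_of_tendsto hlim ?_
  filter_upwards [self_mem_nhdsWithin] with h hh
  exact height_mesh hρ hα hβ hD hE hx hy hδ hε hM hh hR1 hR2

/-- the main entropy inequality -/
theorem main_block {α Y β D E : Matrix X X ℂ}
    (hρ : (fromBlocks α Y Yᴴ β).PosSemidef) (hD : D.PosSemidef) (hE : E.PosSemidef)
    (hx : 0 < α.trace.re) (hy : 0 < β.trace.re) (hδ : 0 < D.trace.re) (hε : 0 < E.trace.re) :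
    ent α + ent β + ent D + ent E
      + pairEnt (α.trace.re + D.trace.re + β.trace.re + E.trace.re)
          (α.trace.re * E.trace.re + β.trace.re * D.trace.re + D.trace.re * E.trace.re)
      ≤ ent (fromBlocks (α + D) Y Yᴴ (β + E)) + Real.negMulLog α.trace.re
        + Real.negMulLog β.trace.re + Real.negMulLog D.trace.re + Real.negMulLog E.trace.re := by
  have hα : α.PosSemidef := hρ.submatrix (Sum.inl : X → X ⊕ X)
  have hβ : β.PosSemidef := hρ.submatrix (Sum.inr : X → X ⊕ X)
  have hDE : (fromBlocks D (0 : Matrix X X ℂ) 0 E).PosSemidef := by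
    have h1 := blk1_psd (Z := X ⊕ X) hD 1
    have h2 := blk2_psd (Z := X ⊕ X) hE 1
    have h3 := h1.add h2
    simpa [fromBlocks_add] using h3
  have hM : (fromBlocks (α + D) Y Yᴴ (β + E)).PosSemidef := by
    have := hρ.add hDE
    rw [fromBlocks_add] at this
    simpa using this
  have hx' := trace_re_eq hα.isHermitian
  have hy' := trace_re_eq hβ.isHermitian
  have hδ' := trace_re_eq hD.isHermitian
  have hε' := trace_re_eq hE.isHermitian
  have hM' := trace_re_eq hM.isHermitian
  rw [trace_blocks, trace_add, trace_add, Complex.add_re, Complex.add_re, Complex.add_re] at hM'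
  have eM := ent_eq hM.isHermitian
  have eα := ent_eq hα.isHermitian
  have eβ := ent_eq hβ.isHermitian
  have eD := ent_eq hD.isHermitian
  have eE := ent_eq hE.isHermitian
  have hev : ∀ R : ℝ, D.trace.re ≤ R → E.trace.re ≤ R → _ := fun R hR1 hR2 =>
    height_ineq hρ hα hβ hD hE hx hy hδ hε hM hR1 hR2
  set x := α.trace.re with hxd
  set y := β.trace.re with hyd
  set δ := D.trace.re with hδd
  set ε := E.trace.re with hεd
  set a := hα.isHermitian.eigenvalues with ha
  set b := hβ.isHermitian.eigenvalues with hb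
  set d := hD.isHermitian.eigenvalues with hd
  set e := hE.isHermitian.eigenvalues with he
  set m := hM.isHermitian.eigenvalues with hm
  have ha0 : ∀ j, 0 ≤ a j := hα.eigenvalues_nonneg
  have hb0 : ∀ j, 0 ≤ b j := hβ.eigenvalues_nonneg
  have hξ0 : ∀ j, 0 ≤ a j / x := fun j => div_nonneg (ha0 j) hx.le
  have hζ0 : ∀ j, 0 ≤ b j / y := fun j => div_nonneg (hb0 j) hy.le
  have hξ1 : ∑ j, a j / x = 1 := by rw [← Finset.sum_div, ← hx', div_self hx.ne']
  have hζ1 : ∑ j, b j / y = 1 := by rw [← Finset.sum_div, ← hy', div_self hy.ne']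
  have hξle : ∀ j, a j / x ≤ 1 := fun j => by
    rw [← hξ1]
    exact Finset.single_le_sum (f := fun j => a j / x) (fun i _ => hξ0 i) (Finset.mem_univ j)
  have hζle : ∀ j, b j / y ≤ 1 := fun j => by
    rw [← hζ1]
    exact Finset.single_le_sum (f := fun j => b j / y) (fun i _ => hζ0 i) (Finset.mem_univ j)
  -- the limit `R → ∞`
  have hmean1 := th_mean (δ := δ) (ε := ε) hx hy
  have hmean2 := th_mean (δ := ε) (ε := δ) hy hx
  have hlim : Tendsto (fun R : ℝ => GG m d e R - ∑ j, KK x y δ ε R (a j / x)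
      - ∑ j, KK y x ε δ R (b j / y)) atTop (𝓝 0) := by
    have key := lim_weighted (ι := (X ⊕ X) ⊕ (X ⊕ (X ⊕ ((X ⊕ (X ⊕ X)) ⊕ (X ⊕ (X ⊕ X))))))
      (Sum.elim (fun _ => 1) (Sum.elim (fun _ => -1) (Sum.elim (fun _ => -1)
        (Sum.elim (Sum.elim (fun _ => -th x y δ ε) (Sum.elim (fun _ => -(1 - th x y δ ε))
          (fun _ => 1))) (Sum.elim (fun _ => -th y x ε δ) (Sum.elim (fun _ => -(1 - th y x ε δ))
          (fun _ => 1)))))))
      (Sum.elim m (Sum.elim d (Sum.elim e
        (Sum.elim (Sum.elim (fun j => a j / x * (lP x y δ ε - δ))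
            (Sum.elim (fun j => a j / x * (lM x y δ ε - δ)) (fun _ => 0)))
          (Sum.elim (fun j => b j / y * (lP y x ε δ - ε))
            (Sum.elim (fun j => b j / y * (lM y x ε δ - ε)) (fun _ => 0)))))))
      (by
        simp only [Fintype.sum_sum_type, Sum.elim_inl, Sum.elim_inr, Finset.sum_const,
          Finset.card_univ, nsmul_eq_mul, Fintype.card_sum]
        push_cast
        ring)
      (by
        simp only [Fintype.sum_sum_type, Sum.elim_inl, Sum.elim_inr, one_mul, neg_mul,
          Finset.sum_neg_distrib, ← Finset.sum_mul, ← Finset.mul_sum, hξ1, hζ1, mul_zero,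
          Finset.sum_const_zero, add_zero]
        rw [Fintype.sum_sum_type] at hM'
        linarith)
    refine key.congr ?_
    intro R
    simp only [Fintype.sum_sum_type, Sum.elim_inl, Sum.elim_inr, GG, KK, Finset.sum_add_distrib,
      Finset.sum_sub_distrib, neg_mul, one_mul, Finset.sum_neg_distrib, add_zero]
    ring
  have hC : GG m d e 0 - AA x y δ ε 0 - AA y x ε δ 0 + x * ∑ j, Real.negMulLog (a j / x)
      + y * ∑ j, Real.negMulLog (b j / y) ≤ 0 := by
    refine ge_of_tendsto hlim ?_
    filter_upwards [eventually_ge_atTop δ, eventually_ge_atTop ε] with R hR1 hR2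
    have h1 := hev R hR1 hR2
    have hR0 : 0 < R := lt_of_lt_of_le hδ hR1
    have k1 : ∀ j, a j / x * AA x y δ ε (R / (a j / x) - δ)
        = KK x y δ ε R (a j / x) + x * Real.negMulLog (a j / x) := fun j =>
      KK_eq hx hy hδ hε (hξ0 j) hR0 (by nlinarith [hξle j])
    have k2 : ∀ j, b j / y * AA y x ε δ (R / (b j / y) - ε)
        = KK y x ε δ R (b j / y) + y * Real.negMulLog (b j / y) := fun j =>
      KK_eq hy hx hε hδ (hζ0 j) hR0 (by nlinarith [hζle j])
    simp only [k1, k2, Finset.sum_add_distrib, ← Finset.mul_sum] at h1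
    linarith
  have e1 : x * ∑ j, Real.negMulLog (a j / x) = ent α - Real.negMulLog x := by
    have : ∀ j, Real.negMulLog (a j)
        = a j / x * Real.negMulLog x + x * Real.negMulLog (a j / x) := by
      intro j
      rw [← Real.negMulLog_mul, mul_div_cancel₀ _ hx.ne']
    rw [eα, Finset.sum_congr rfl fun j _ => this j, Finset.sum_add_distrib, ← Finset.sum_mul,
      ← Finset.mul_sum, hξ1]
    ring
  have e2 : y * ∑ j, Real.negMulLog (b j / y) = ent β - Real.negMulLog y := by
    have : ∀ j, Real.negMulLog (b j)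
        = b j / y * Real.negMulLog y + y * Real.negMulLog (b j / y) := by
      intro j
      rw [← Real.negMulLog_mul, mul_div_cancel₀ _ hy.ne']
    rw [eβ, Finset.sum_congr rfl fun j _ => this j, Finset.sum_add_distrib, ← Finset.sum_mul,
      ← Finset.mul_sum, hζ1]
    ring
  have e3 := AA_zero_add (δ := δ) (ε := ε) hx hy
  have e4 : pairEnt (x + δ + y + ε) (x * ε + y * δ + δ * ε)
      = Real.negMulLog (lP x y δ ε) + Real.negMulLog (lM x y δ ε) := rfl
  have e5 : GG m d e 0 = -(∑ i, Real.negMulLog (m i)) + ∑ i, Real.negMulLog (d i)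
      + ∑ i, Real.negMulLog (e i) := by
    unfold GG
    simp only [zero_add, Real.negMulLog, neg_mul, Finset.sum_neg_distrib]
    ring
  rw [e4]
  linarith

end

end Vale.Agent.H19.GAD
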