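import Vale.Agent.H28.Zclaim

open Matrix Complex
open scoped ComplexOrder

namespace Vale.Agent.H19.GAD

open Vale.Agent.H28

section weights

variable {Z : Type*} [Fintype Z] [DecidableEq Z]

/-- diagonal entries of a Hermitian matrix in an orthonormal basis are averages of eigenvalues -/
theorem weights {A : Matrix Z Z ℂ} (hA : A.IsHermitian) {U : Matrix Z Z ℂ} (hU1 : Uᴴ * U = 1)
    (hU2 : U * Uᴴ = 1) :
    ∃ w : Z → Z → ℝ, (∀ i j, 0 ≤ w i j) ∧ (∀ i, ∑ j, w i j = 1) ∧ (∀ j, ∑ i, w i j = 1) ∧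
      ∀ i, (Uᴴ * A * U) i i = ((∑ j, w i j * hA.eigenvalues j : ℝ) : ℂ) := by
  obtain ⟨V, h1, h2, h3⟩ := spectral' hA
  set W : Matrix Z Z ℂ := Uᴴ * V with hW
  have hWW1 : W * Wᴴ = 1 := by
    rw [hW, conjTranspose_mul, conjTranspose_conjTranspose, Matrix.mul_assoc,
      ← Matrix.mul_assoc V, h2, Matrix.one_mul, hU1]
  have hWW2 : Wᴴ * W = 1 := by
    rw [hW, conjTranspose_mul, conjTranspose_conjTranspose, Matrix.mul_assoc,
      ← Matrix.mul_assoc U, hU2, Matrix.one_mul, h1]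
  have hn : ∀ i j, ((‖W i j‖ ^ 2 : ℝ) : ℂ) = W i j * star (W i j) := by
    intro i j
    have := Complex.mul_conj' (W i j)
    rw [starRingEnd_apply] at this
    rw [this]; push_cast; rfl
  refine ⟨fun i j => ‖W i j‖ ^ 2, fun i j => by positivity, ?_, ?_, ?_⟩
  · intro i
    have h := congrFun (congrFun hWW1 i) i
    rw [Matrix.mul_apply] at h
    simp only [conjTranspose_apply, ← hn, one_apply_eq] at h
    exact_mod_cast h
  · intro j
    have h := congrFun (congrFun hWW2 j) j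
    rw [Matrix.mul_apply] at h
    simp only [conjTranspose_apply, one_apply_eq] at h
    have h' : ∑ i, ((‖W i j‖ ^ 2 : ℝ) : ℂ) = 1 := by
      rw [← h]
      exact Finset.sum_congr rfl fun i _ => by rw [hn, mul_comm]
    exact_mod_cast h'
  · intro i
    have e : Uᴴ * A * U = W * diagonal (fun j => (hA.eigenvalues j : ℂ)) * Wᴴ := by
      rw [hW, conjTranspose_mul, conjTranspose_conjTranspose]
      conv_lhs => rw [h3]
      simp only [Matrix.mul_assoc]
    rw [e, Matrix.mul_apply]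
    simp only [mul_diagonal, conjTranspose_apply]
    push_cast
    apply Finset.sum_congr rfl
    intro j _
    have := hn i j
    push_cast at this
    rw [this]
    ring

theorem log_det_lower {P Q : Matrix Z Z ℂ} (hP : P.PosSemidef) (hQ : Q.PosSemidef)
    {f g : ℝ → ℝ}
    (hJ : ∀ w w' l l' : Z → ℝ, (∀ j, 0 ≤ w j) → (∀ j, 0 ≤ w' j) → (∀ j, 0 ≤ l j) →
      (∀ j, 0 ≤ l' j) → ∑ j, w j = 1 → ∑ j, w' j = 1 →
      ∑ j, w j * f (l j) + ∑ j, w' j * g (l' j)
        ≤ Real.log (1 + ∑ j, w j * l j + ∑ j, w' j * l' j)) :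
    ∑ j, f (hP.isHermitian.eigenvalues j) + ∑ j, g (hQ.isHermitian.eigenvalues j)
      ≤ Real.log (1 + (P + Q)).det.re := by
  have hPQ : (P + Q).PosSemidef := hP.add hQ
  obtain ⟨U, h1, h2, h3⟩ := spectral' hPQ.isHermitian
  obtain ⟨w, hw0, hw1, hw2, hw3⟩ := weights hP.isHermitian h1 h2
  obtain ⟨w', hw0', hw1', hw2', hw3'⟩ := weights hQ.isHermitian h1 h2
  set κ := hPQ.isHermitian.eigenvalues with hκ
  set l := hP.isHermitian.eigenvalues with hl
  set l' := hQ.isHermitian.eigenvalues with hl'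
  have hl0 : ∀ j, 0 ≤ l j := hP.eigenvalues_nonneg
  have hl0' : ∀ j, 0 ≤ l' j := hQ.eigenvalues_nonneg
  have hκ0 : ∀ j, 0 ≤ κ j := hPQ.eigenvalues_nonneg
  have hκe : ∀ i, κ i = ∑ j, w i j * l j + ∑ j, w' i j * l' j := by
    intro i
    have e : Uᴴ * (P + Q) * U = diagonal (fun j => (κ j : ℂ)) := by
      conv_lhs => rw [h3]
      calc Uᴴ * (U * diagonal (fun k => (κ k : ℂ)) * Uᴴ) * U
          = (Uᴴ * U) * diagonal (fun k => (κ k : ℂ)) * (Uᴴ * U) := by
            simp only [Matrix.mul_assoc]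
        _ = _ := by rw [h1]; simp
    have e2 := congrFun (congrFun e i) i
    rw [mul_add, add_mul, Matrix.add_apply, hw3, hw3', diagonal_apply_eq] at e2
    exact_mod_cast e2.symm
  have hdet : (1 + (P + Q)).det.re = ∏ i, (1 + κ i) := by
    have := det_add_eq hPQ.isHermitian 1
    rw [Complex.ofReal_one, one_smul] at this
    rw [this, Complex.ofReal_re]
  rw [hdet, Real.log_prod (fun i _ => by have := hκ0 i; positivity)]
  have hstep : ∀ i, ∑ j, w i j * f (l j) + ∑ j, w' i j * g (l' j) ≤ Real.log (1 + κ i) := by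
    intro i
    have := hJ (w i) (w' i) l l' (hw0 i) (hw0' i) hl0 hl0' (hw1 i) (hw1' i)
    rw [hκe i, ← add_assoc]
    exact this
  have hsum := Finset.sum_le_sum (fun i (_ : i ∈ Finset.univ) => hstep i)
  rw [Finset.sum_add_distrib, Finset.sum_comm, Finset.sum_comm (f := fun i j => w' i j * g (l' j))]
    at hsum
  simp only [← Finset.sum_mul, hw2, hw2', one_mul] at hsum
  exact hsum

end weights

section quad

variable {Z : Type*} [Fintype Z] [DecidableEq Z]

omit [DecidableEq Z] in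
theorem star_dot_self (v : Z → ℂ) : (star v ⬝ᵥ v).re = ∑ i, ‖v i‖ ^ 2 := by
  simp only [dotProduct, Pi.star_apply, Complex.re_sum]
  apply Finset.sum_congr rfl
  intro i _
  have := Complex.conj_mul' (v i)
  rw [starRingEnd_apply] at this
  rw [this]
  norm_cast

theorem dot_unitary {U : Matrix Z Z ℂ} (h : U * Uᴴ = 1) (v : Z → ℂ) :
    (star v ⬝ᵥ v).re = ∑ i, ‖(Uᴴ *ᵥ v) i‖ ^ 2 := by
  rw [← star_dot_self, star_mulVec, conjTranspose_conjTranspose, ← dotProduct_mulVec,
    mulVec_mulVec, h, one_mulVec]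

theorem quad_form {A U : Matrix Z Z ℂ} {l : Z → ℝ} (h : A = U * diagonal (fun i => (l i : ℂ)) * Uᴴ)
    (v : Z → ℂ) : (star v ⬝ᵥ (A *ᵥ v)).re = ∑ i, l i * ‖(Uᴴ *ᵥ v) i‖ ^ 2 := by
  rw [h, ← mulVec_mulVec, ← mulVec_mulVec, dotProduct_mulVec]
  have e : star v ᵥ* U = star (Uᴴ *ᵥ v) := by
    rw [star_mulVec, conjTranspose_conjTranspose]
  rw [e]
  simp only [dotProduct, mulVec_diagonal, Pi.star_apply, Complex.re_sum]
  apply Finset.sum_congr rfl
  intro i _
  have := Complex.conj_mul' ((Uᴴ *ᵥ v) i)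
  rw [starRingEnd_apply] at this
  calc (star ((Uᴴ *ᵥ v) i) * ((l i : ℂ) * (Uᴴ *ᵥ v) i)).re
      = ((l i : ℂ) * (star ((Uᴴ *ᵥ v) i) * (Uᴴ *ᵥ v) i)).re := by congr 1; ring
    _ = _ := by rw [this]; norm_cast

end quad

section count

variable {Z X : Type*} [Fintype Z] [DecidableEq Z] [Fintype X] [DecidableEq X]

theorem count_le {P : Matrix Z Z ℂ} (hP : P.IsHermitian) {H : Matrix X X ℂ} (hH : H.IsHermitian)
    (K : Matrix Z X ℂ) (s p : ℝ)
    (h : ∀ v : X → ℂ, s * (star v ⬝ᵥ v).re < (star v ⬝ᵥ (H *ᵥ v)).re →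
      p * (star (K *ᵥ v) ⬝ᵥ (K *ᵥ v)).re < (star (K *ᵥ v) ⬝ᵥ (P *ᵥ (K *ᵥ v))).re) :
    (Finset.univ.filter (fun j => s < hH.eigenvalues j)).card
      ≤ (Finset.univ.filter (fun i => p < hP.eigenvalues i)).card := by
  classical
  obtain ⟨U, u1, u2, u3⟩ := spectral' hH
  obtain ⟨V, v1, v2, v3⟩ := spectral' hP
  set μ := hH.eigenvalues with hμ
  set l := hP.eigenvalues with hl
  set N : Matrix {i // p < l i} {j // s < μ j} ℂ :=
    (Vᴴ * K * U).submatrix Subtype.val Subtype.val with hN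
  have hinj : Function.Injective N.mulVecLin := by
    rw [injective_iff_map_eq_zero]
    intro c hc
    rw [mulVecLin_apply] at hc
    set d : X → ℂ := fun j => if hj : s < μ j then c ⟨j, hj⟩ else 0 with hd
    have hNd : ∀ i : {i // p < l i}, ((Vᴴ * K * U) *ᵥ d) i.1 = 0 := by
      intro i
      have h1 := congrFun hc i
      rw [Pi.zero_apply] at h1
      rw [← h1]
      have e1 : ((Vᴴ * K * U) *ᵥ d) i.1 = ∑ j, (Vᴴ * K * U) i.1 j * d j := rfl
      have e2 : (N *ᵥ c) i = ∑ j : {j // s < μ j}, (Vᴴ * K * U) i.1 j.1 * d j.1 := by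
        have : (N *ᵥ c) i = ∑ j : {j // s < μ j}, (Vᴴ * K * U) i.1 j.1 * c j := rfl
        rw [this]
        apply Finset.sum_congr rfl
        intro j _
        simp only [hd, j.2, dif_pos]
      rw [e1, e2, ← Finset.sum_subset (Finset.filter_subset (fun j => s < μ j) Finset.univ)]
      · exact Finset.sum_subtype (Finset.univ.filter (fun j => s < μ j)) (p := fun j => s < μ j)
          (by simp) (fun j => (Vᴴ * K * U) i.1 j * d j)
      · intro j _ hj
        simp only [Finset.mem_filter, Finset.mem_univ, true_and] at hj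
        simp [hd, hj]
    set v := U *ᵥ d with hv
    have hvd : Uᴴ *ᵥ v = d := by rw [hv, mulVec_mulVec, u1, one_mulVec]
    have hnot : ¬ (p * (star (K *ᵥ v) ⬝ᵥ (K *ᵥ v)).re
        < (star (K *ᵥ v) ⬝ᵥ (P *ᵥ (K *ᵥ v))).re) := by
      rw [not_lt, quad_form v3, dot_unitary v2, Finset.mul_sum]
      apply Finset.sum_le_sum
      intro i _
      by_cases hi : p < l i
      · have h0 : (Vᴴ *ᵥ (K *ᵥ v)) i = 0 := by
          have := hNd ⟨i, hi⟩
          rw [hv, mulVec_mulVec, mulVec_mulVec, Matrix.mul_assoc] at *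
          exact this
        rw [h0]; simp
      · exact mul_le_mul_of_nonneg_right (not_lt.1 hi) (by positivity)
    have h2 := mt (h v) hnot
    rw [not_lt, quad_form u3, dot_unitary u2, hvd, Finset.mul_sum] at h2
    have h3 : ∀ j ∈ Finset.univ, s * ‖d j‖ ^ 2 ≤ μ j * ‖d j‖ ^ 2 := by
      intro j _
      by_cases hj : s < μ j
      · exact mul_le_mul_of_nonneg_right hj.le (by positivity)
      · simp [hd, hj]
    have h4 := (Finset.sum_eq_sum_iff_of_le h3).1 (le_antisymm (Finset.sum_le_sum h3) h2)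
    funext j
    have h5 := h4 j.1 (Finset.mem_univ _)
    have h6 : d j.1 = c j := by simp only [hd, j.2, dif_pos]
    rw [h6] at h5
    have h7 : (μ j.1 - s) * ‖c j‖ ^ 2 = 0 := by linarith
    have h8 : μ j.1 - s ≠ 0 := (sub_pos.2 j.2).ne'
    have h9 : ‖c j‖ ^ 2 = 0 := (mul_eq_zero.1 h7).resolve_left h8
    have h10 : ‖c j‖ = 0 := by simpa using h9
    simpa using h10
  have hrank := LinearMap.finrank_le_finrank_of_injective hinj
  simp only [Module.finrank_fintype_fun_eq_card, Fintype.card_subtype] at hrank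
  exact hrank

end count

end Vale.Agent.H19.GAD
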