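import Vale.Agent.H19.GAD.MatLem

open Matrix Complex
open scoped ComplexOrder

namespace Vale.Agent.H19.GAD

open Vale.Agent.H28

section trace

variable {X : Type*} [Fintype X] [DecidableEq X]

theorem min_max_ge (m R : ℝ) : m - max (m - R) 0 ≤ min (max m 0) R := by
  rcases le_total m R with h | h
  · rw [max_eq_right (by linarith : m - R ≤ 0), sub_zero]
    exact le_min (le_max_left _ _) h
  · rw [max_eq_left (by linarith : 0 ≤ m - R)]
    apply le_min
    · have := le_max_left m 0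
      linarith
    · linarith

theorem min_eq_sub (m R : ℝ) : m - max (m - R) 0 = min m R := by
  rcases le_total m R with h | h
  · rw [max_eq_right (by linarith : m - R ≤ 0), min_eq_left h, sub_zero]
  · rw [max_eq_left (by linarith : 0 ≤ m - R), min_eq_right h]; ring

/-- trace comparison for `H = c α - D` -/
theorem trace_min {α D H : Matrix X X ℂ} (hα : α.PosSemidef) (hD : D.PosSemidef)
    (hH : H.IsHermitian) {c R : ℝ} (hHe : H = (c : ℂ) • α - D) :
    ∑ j, min (c * hα.isHermitian.eigenvalues j) R - D.trace.re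
      ≤ ∑ j, min (max (hH.eigenvalues j) 0) R := by
  obtain ⟨U, h1, h2, h3⟩ := spectral' hH
  obtain ⟨w, hw0, hw1, hw2, hw3⟩ := weights hα.isHermitian h1 h2
  set a := hα.isHermitian.eigenvalues with ha
  set μ := hH.eigenvalues with hμ
  have hDU : (Uᴴ * D * U).PosSemidef := hD.conjTranspose_mul_mul_same U
  set d : X → ℝ := fun i => ((Uᴴ * D * U) i i).re with hd
  have hd0 : ∀ i, 0 ≤ d i := fun i => (Complex.nonneg_iff.1 (hDU.diag_nonneg (i := i))).1
  have hdt : ∑ i, d i = D.trace.re := by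
    have : (Uᴴ * D * U).trace = D.trace := by
      rw [Matrix.trace_mul_comm, ← Matrix.mul_assoc, h2, Matrix.one_mul]
    rw [← this, Matrix.trace, Complex.re_sum]
    rfl
  have hμe : ∀ i, μ i = c * ∑ j, w i j * a j - d i := by
    intro i
    have e : Uᴴ * H * U = diagonal (fun j => (μ j : ℂ)) := by
      conv_lhs => rw [h3]
      calc Uᴴ * (U * diagonal (fun k => (μ k : ℂ)) * Uᴴ) * U
          = (Uᴴ * U) * diagonal (fun k => (μ k : ℂ)) * (Uᴴ * U) := by
            simp only [Matrix.mul_assoc]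
        _ = _ := by rw [h1]; simp
    have e2 := congrFun (congrFun e i) i
    have e3 : Uᴴ * H * U = (c : ℂ) • (Uᴴ * α * U) - Uᴴ * D * U := by
      rw [hHe]
      simp only [Matrix.mul_sub, Matrix.sub_mul, Matrix.mul_smul, Matrix.smul_mul]
    rw [e3, Matrix.sub_apply, Matrix.smul_apply, hw3, diagonal_apply_eq, smul_eq_mul] at e2
    have e4 := congrArg Complex.re e2
    rw [Complex.sub_re, ← Complex.ofReal_mul, Complex.ofReal_re, Complex.ofReal_re] at e4
    exact e4.symm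
  have step : ∀ i, c * ∑ j, w i j * a j - d i - ∑ j, w i j * max (c * a j - R) 0
      ≤ min (max (μ i) 0) R := by
    intro i
    refine le_trans ?_ (min_max_ge _ _)
    have h4 : max (μ i - R) 0 ≤ ∑ j, w i j * max (c * a j - R) 0 := by
      apply max_le
      · calc μ i - R ≤ c * ∑ j, w i j * a j - R := by
              rw [hμe i]; linarith [hd0 i]
          _ = ∑ j, w i j * (c * a j - R) := by
              simp only [mul_sub, Finset.sum_sub_distrib, ← Finset.sum_mul, hw1, one_mul]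
              congr 1
              rw [Finset.mul_sum]
              exact Finset.sum_congr rfl fun j _ => by ring
          _ ≤ _ := Finset.sum_le_sum fun j _ =>
              mul_le_mul_of_nonneg_left (le_max_left _ _) (hw0 i j)
      · exact Finset.sum_nonneg fun j _ => mul_nonneg (hw0 i j) (le_max_right _ _)
    rw [hμe i] at h4 ⊢
    linarith
  have hsum := Finset.sum_le_sum (fun i (_ : i ∈ Finset.univ) => step i)
  refine le_trans (le_of_eq ?_) hsum
  simp only [Finset.sum_sub_distrib]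
  rw [hdt, ← Finset.mul_sum, Finset.sum_comm,
    Finset.sum_comm (f := fun i j => w i j * max (c * a j - R) 0)]
  simp only [← Finset.sum_mul, hw2, one_mul]
  have : ∀ j, min (c * a j) R = c * a j - max (c * a j - R) 0 := fun j => (min_eq_sub _ _).symm
  simp only [this, Finset.sum_sub_distrib, ← Finset.mul_sum]
  ring

end trace

/-- embedding in the upper-left block -/
abbrev b1 {X : Type*} (A : Matrix X X ℂ) : Matrix (X ⊕ X) (X ⊕ X) ℂ := fromBlocks A 0 0 0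

/-- embedding in the lower-right block -/
abbrev b2 {X : Type*} (A : Matrix X X ℂ) : Matrix (X ⊕ X) (X ⊕ X) ℂ := fromBlocks 0 0 0 A

section blocks

variable {X Z : Type*} [Fintype X] [DecidableEq X] [Fintype Z] [DecidableEq Z]

theorem blockInv {A B : Matrix X X ℂ} (hA : A.PosDef) (hB : B.PosDef) :
    (fromBlocks A 0 0 B)⁻¹ = fromBlocks A⁻¹ 0 0 B⁻¹ := by
  apply Matrix.inv_eq_right_inv
  rw [fromBlocks_multiply]
  have uA : IsUnit A.det := (Matrix.isUnit_iff_isUnit_det _).1 hA.isUnit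
  have uB : IsUnit B.det := (Matrix.isUnit_iff_isUnit_det _).1 hB.isUnit
  simp [Matrix.mul_nonsing_inv _ uA, Matrix.mul_nonsing_inv _ uB]

/-- `det (W + Gᴴ G) = det W det (1 + P + Q)` -/
theorem det_split {A B : Matrix X X ℂ} (hA : A.PosDef) (hB : B.PosDef)
    (G : Matrix Z (X ⊕ X) ℂ) :
    (fromBlocks A 0 0 B + Gᴴ * G).det
      = A.det * B.det * (1 + (G * b1 A⁻¹ * Gᴴ + G * b2 B⁻¹ * Gᴴ)).det := by
  have uA : IsUnit A.det := (Matrix.isUnit_iff_isUnit_det _).1 hA.isUnit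
  have uB : IsUnit B.det := (Matrix.isUnit_iff_isUnit_det _).1 hB.isUnit
  have hdet : (fromBlocks A 0 0 B).det = A.det * B.det := det_fromBlocks_zero₂₁ A 0 B
  have u : IsUnit (fromBlocks A (0 : Matrix X X ℂ) 0 B).det := by rw [hdet]; exact uA.mul uB
  rw [Matrix.det_add_mul Gᴴ G u, hdet, blockInv hA hB]
  congr 2
  rw [← Matrix.add_mul, ← Matrix.mul_add, fromBlocks_add]
  simp

omit [DecidableEq Z] in
theorem blk1_psd {A : Matrix X X ℂ} (hA : A.PosSemidef) (G : Matrix Z (X ⊕ X) ℂ) :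
    (G * b1 A * Gᴴ).PosSemidef := by
  have : (fromBlocks A (0 : Matrix X X ℂ) 0 (0 : Matrix X X ℂ)).PosSemidef := by
    have h := hA.conjTranspose_mul_mul_same (Matrix.of fun (i : X) (j : X ⊕ X) =>
      Sum.elim (fun k => (1 : Matrix X X ℂ) i k) (fun _ => (0 : ℂ)) j)
    convert h using 1
    ext i j
    rcases i with i | i <;> rcases j with j | j <;>
      simp [Matrix.mul_apply, Matrix.one_apply]
  exact this.mul_mul_conjTranspose_same G

omit [DecidableEq Z] in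
theorem blk2_psd {A : Matrix X X ℂ} (hA : A.PosSemidef) (G : Matrix Z (X ⊕ X) ℂ) :
    (G * b2 A * Gᴴ).PosSemidef := by
  have : (fromBlocks (0 : Matrix X X ℂ) (0 : Matrix X X ℂ) 0 A).PosSemidef := by
    have h := hA.conjTranspose_mul_mul_same (Matrix.of fun (i : X) (j : X ⊕ X) =>
      Sum.elim (fun _ => (0 : ℂ)) (fun k => (1 : Matrix X X ℂ) i k) j)
    convert h using 1
    ext i j
    rcases i with i | i <;> rcases j with j | j <;>
      simp [Matrix.mul_apply, Matrix.one_apply]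
  exact this.mul_mul_conjTranspose_same G

/-- the variational input of the counting lemma -/
theorem var_key {α D : Matrix X X ℂ} {s p : ℝ} (hs : 0 < s) (hp : 0 < p) (hα : α.PosSemidef)
    (hD : D.PosSemidef) {v : X → ℂ}
    (h : s * (star v ⬝ᵥ v).re < (star v ⬝ᵥ ((((p⁻¹ : ℝ) : ℂ) • α - D) *ᵥ v)).re) :
    p * (star v ⬝ᵥ (α *ᵥ v)).re
      < (star (α *ᵥ v) ⬝ᵥ (((s : ℂ) • (1 : Matrix X X ℂ) + D)⁻¹ *ᵥ (α *ᵥ v))).re := by
  set A := (s : ℂ) • (1 : Matrix X X ℂ) + D with hA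
  have hApd : A.PosDef := (smul_one_posDef hs).add_posSemidef hD
  have hcs := cs_key hApd (α *ᵥ v) v
  set T := (star (α *ᵥ v) ⬝ᵥ (A⁻¹ *ᵥ (α *ᵥ v))).re with hT
  have hαv : star (α *ᵥ v) ⬝ᵥ v = star v ⬝ᵥ (α *ᵥ v) := by
    rw [star_mulVec, hα.isHermitian.eq, ← dotProduct_mulVec]
  have ha0 : 0 ≤ star v ⬝ᵥ (α *ᵥ v) := hα.dotProduct_mulVec_nonneg v
  set a := (star v ⬝ᵥ (α *ᵥ v)).re with ha
  have hare : star v ⬝ᵥ (α *ᵥ v) = (a : ℂ) := by
    obtain ⟨_, him⟩ := Complex.nonneg_iff.1 ha0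
    apply Complex.ext <;> simp [← him, ha]
  have ha0' : 0 ≤ a := (Complex.nonneg_iff.1 ha0).1
  have hd0 : 0 ≤ (star v ⬝ᵥ (D *ᵥ v)).re := (Complex.nonneg_iff.1 (hD.dotProduct_mulVec_nonneg v)).1
  set d := (star v ⬝ᵥ (D *ᵥ v)).re with hd
  have hv0 : 0 ≤ (star v ⬝ᵥ v).re := by
    rw [star_dot_self]
    exact Finset.sum_nonneg fun i _ => by positivity
  set n := (star v ⬝ᵥ v).re with hn
  have e1 : (star v ⬝ᵥ (A *ᵥ v)).re = s * n + d := by
    rw [hA, add_mulVec, smul_mulVec, one_mulVec, dotProduct_add, dotProduct_smul, smul_eq_mul,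
      Complex.add_re, Complex.re_ofReal_mul]
  have e2 : (star v ⬝ᵥ ((((p⁻¹ : ℝ) : ℂ) • α - D) *ᵥ v)).re = p⁻¹ * a - d := by
    rw [sub_mulVec, smul_mulVec, dotProduct_sub, dotProduct_smul, smul_eq_mul,
      Complex.sub_re, Complex.re_ofReal_mul]
  rw [e2] at h
  rw [hαv, hare, e1, Complex.norm_real, Real.norm_of_nonneg ha0'] at hcs
  -- `a^2 ≤ T (s n + d)`, `s n + d < a / p`
  have h1 : s * n + d < p⁻¹ * a := by linarith
  have h2 : 0 ≤ s * n + d := by positivity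
  have h3 : 0 < a := by
    have : 0 < p⁻¹ * a := lt_of_le_of_lt h2 h1
    exact (mul_pos_iff_of_pos_left (by positivity)).1 this
  have h4 : 0 < T * (s * n + d) := lt_of_lt_of_le (by positivity) hcs
  have h5 : 0 < s * n + d := by
    rcases h2.eq_or_lt with h | h
    · rw [← h, mul_zero] at h4
      exact absurd h4 (lt_irrefl _)
    · exact h
  have h6 : 0 < T := (mul_pos_iff_of_pos_right h5).1 h4
  have h7 : T * (s * n + d) < T * (p⁻¹ * a) := mul_lt_mul_of_pos_left h1 h6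
  have h8 : a ^ 2 < T * (p⁻¹ * a) := lt_of_le_of_lt hcs h7
  have h9 : a * (p * a) < a * T := by
    have : p * a ^ 2 < p * (T * (p⁻¹ * a)) := mul_lt_mul_of_pos_left h8 hp
    have e : p * (T * (p⁻¹ * a)) = a * T := by field_simp
    rw [e] at this
    linarith
  exact lt_of_mul_lt_mul_left h9 h3.le

/-- first count comparison -/
theorem count1 {α Y β D : Matrix X X ℂ} {G : Matrix Z (X ⊕ X) ℂ} {s p : ℝ} (hs : 0 < s)
    (hp : 0 < p) (hG : Gᴴ * G = fromBlocks α Y Yᴴ β) (hα : α.PosSemidef) (hD : D.PosSemidef)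
    {H : Matrix X X ℂ} (hH : H.IsHermitian) (hHe : H = ((p⁻¹ : ℝ) : ℂ) • α - D)
    (hP : (G * b1 (((s : ℂ) • (1 : Matrix X X ℂ) + D)⁻¹) * Gᴴ).IsHermitian) :
    (Finset.univ.filter (fun j => s < hH.eigenvalues j)).card
      ≤ (Finset.univ.filter (fun i => p < hP.eigenvalues i)).card := by
  set A := (s : ℂ) • (1 : Matrix X X ℂ) + D with hA
  set K : Matrix Z X ℂ := G.submatrix id Sum.inl with hK
  have hKv : ∀ v : X → ℂ, K *ᵥ v = G *ᵥ (Sum.elim v 0) := by
    intro v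
    funext i
    simp [hK, mulVec, dotProduct, Fintype.sum_sum_type]
  have hρv : ∀ v : X → ℂ, fromBlocks α Y Yᴴ β *ᵥ (Sum.elim v 0) = Sum.elim (α *ᵥ v) (Yᴴ *ᵥ v) := by
    intro v
    rw [fromBlocks_mulVec]
    simp
  have hsd : ∀ (v : X → ℂ) (w1 w2 : X → ℂ), star (Sum.elim v (0 : X → ℂ)) ⬝ᵥ (Sum.elim w1 w2)
      = star v ⬝ᵥ w1 := by
    intro v w1 w2
    simp [dotProduct, Fintype.sum_sum_type]
  have e1 : ∀ v : X → ℂ, star (K *ᵥ v) ⬝ᵥ (K *ᵥ v) = star v ⬝ᵥ (α *ᵥ v) := by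
    intro v
    rw [hKv, star_mulVec, ← dotProduct_mulVec, mulVec_mulVec, hG, hρv, hsd]
  have e2 : ∀ v : X → ℂ, star (K *ᵥ v) ⬝ᵥ ((G * b1 A⁻¹ * Gᴴ) *ᵥ (K *ᵥ v))
      = star (α *ᵥ v) ⬝ᵥ (A⁻¹ *ᵥ (α *ᵥ v)) := by
    intro v
    have f1 : Gᴴ *ᵥ (K *ᵥ v) = Sum.elim (α *ᵥ v) (Yᴴ *ᵥ v) := by
      rw [hKv, mulVec_mulVec, hG, hρv]
    rw [← mulVec_mulVec, ← mulVec_mulVec, f1, dotProduct_mulVec]
    have f2 : star (K *ᵥ v) ᵥ* G = star (Gᴴ *ᵥ (K *ᵥ v)) := by
      rw [star_mulVec Gᴴ, conjTranspose_conjTranspose]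
    rw [f2, f1, fromBlocks_mulVec]
    simp [dotProduct, Fintype.sum_sum_type]
  apply count_le hP hH K s p
  intro v hv
  rw [e1, e2]
  rw [hHe] at hv
  exact var_key hs hp hα hD hv

/-- second count comparison -/
theorem count2 {α Y β E : Matrix X X ℂ} {G : Matrix Z (X ⊕ X) ℂ} {s p : ℝ} (hs : 0 < s)
    (hp : 0 < p) (hG : Gᴴ * G = fromBlocks α Y Yᴴ β) (hβ : β.PosSemidef) (hE : E.PosSemidef)
    {H : Matrix X X ℂ} (hH : H.IsHermitian) (hHe : H = ((p⁻¹ : ℝ) : ℂ) • β - E)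
    (hP : (G * b2 (((s : ℂ) • (1 : Matrix X X ℂ) + E)⁻¹) * Gᴴ).IsHermitian) :
    (Finset.univ.filter (fun j => s < hH.eigenvalues j)).card
      ≤ (Finset.univ.filter (fun i => p < hP.eigenvalues i)).card := by
  set A := (s : ℂ) • (1 : Matrix X X ℂ) + E with hA
  set K : Matrix Z X ℂ := G.submatrix id Sum.inr with hK
  have hKv : ∀ v : X → ℂ, K *ᵥ v = G *ᵥ (Sum.elim 0 v) := by
    intro v
    funext i
    simp [hK, mulVec, dotProduct, Fintype.sum_sum_type]
  have hρv : ∀ v : X → ℂ, fromBlocks α Y Yᴴ β *ᵥ (Sum.elim 0 v) = Sum.elim (Y *ᵥ v) (β *ᵥ v) := by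
    intro v
    rw [fromBlocks_mulVec]
    simp
  have hsd : ∀ (v : X → ℂ) (w1 w2 : X → ℂ), star (Sum.elim (0 : X → ℂ) v) ⬝ᵥ (Sum.elim w1 w2)
      = star v ⬝ᵥ w2 := by
    intro v w1 w2
    simp [dotProduct, Fintype.sum_sum_type]
  have e1 : ∀ v : X → ℂ, star (K *ᵥ v) ⬝ᵥ (K *ᵥ v) = star v ⬝ᵥ (β *ᵥ v) := by
    intro v
    rw [hKv, star_mulVec, ← dotProduct_mulVec, mulVec_mulVec, hG, hρv, hsd]
  have e2 : ∀ v : X → ℂ, star (K *ᵥ v) ⬝ᵥ ((G * b2 A⁻¹ * Gᴴ) *ᵥ (K *ᵥ v))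
      = star (β *ᵥ v) ⬝ᵥ (A⁻¹ *ᵥ (β *ᵥ v)) := by
    intro v
    have f1 : Gᴴ *ᵥ (K *ᵥ v) = Sum.elim (Y *ᵥ v) (β *ᵥ v) := by
      rw [hKv, mulVec_mulVec, hG, hρv]
    rw [← mulVec_mulVec, ← mulVec_mulVec, f1, dotProduct_mulVec]
    have f2 : star (K *ᵥ v) ᵥ* G = star (Gᴴ *ᵥ (K *ᵥ v)) := by
      rw [star_mulVec Gᴴ, conjTranspose_conjTranspose]
    rw [f2, f1, fromBlocks_mulVec]
    simp [dotProduct, Fintype.sum_sum_type]
  apply count_le hP hH K s p
  intro v hv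
  rw [e1, e2]
  rw [hHe] at hv
  exact var_key hs hp hβ hE hv

end blocks

end Vale.Agent.H19.GAD
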