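import Vale.Agent.H19.GAD.MainBlock
import Vale.Agent.H28.Nu01

open Matrix Complex
open scoped ComplexOrder

namespace Vale.Agent.H19.GAD

open Vale.Agent.H28

section

variable {X : Type*} [Fintype X] [DecidableEq X]

theorem ent_smul {A : Matrix X X ℂ} (hA : A.PosSemidef) (c : ℝ) :
    ent ((c : ℂ) • A) = c * ent A + A.trace.re * Real.negMulLog c := by
  obtain ⟨U, h1, h2, h3⟩ := spectral' hA.isHermitian
  have htr := trace_re_eq hA.isHermitian
  have hen := ent_eq hA.isHermitian
  set l := hA.isHermitian.eigenvalues with hl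
  have e : (c : ℂ) • A = U * diagonal (fun i => ((c * l i : ℝ) : ℂ)) * Uᴴ := by
    conv_lhs => rw [h3]
    have : (diagonal (fun i => ((c * l i : ℝ) : ℂ)) : Matrix X X ℂ)
        = (c : ℂ) • diagonal (fun i => (l i : ℂ)) := by
      ext i j
      by_cases hij : i = j
      · subst hij; simp
      · simp [hij]
    rw [this, Matrix.mul_smul, Matrix.smul_mul]
  rw [e, ent_conj h1, ent_diagonal, hen, htr]
  simp only [Real.negMulLog_mul, Finset.sum_add_distrib, ← Finset.mul_sum, ← Finset.sum_mul]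
  ring

theorem Lam_mid_zero (p t : ℝ) :
    Lam p 0 t = Real.negMulLog (p + t) - Real.negMulLog p - Real.negMulLog t := by
  unfold Lam
  rw [pairEnt_eq (u := p + t) (v := 0) (by ring) (by ring)]
  simp

/-- superadditivity defect of the entropy is minimal on scalars -/
theorem star_ineq {U V : Matrix X X ℂ} (hU : U.PosSemidef) (hV : V.PosSemidef) :
    ent U + ent V + Real.negMulLog (U.trace.re + V.trace.re)
      ≤ ent (U + V) + Real.negMulLog U.trace.re + Real.negMulLog V.trace.re := by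
  have hUV := hU.add hV
  obtain ⟨W, h1, h2, h3⟩ := spectral' hUV.isHermitian
  have hen := ent_eq hUV.isHermitian
  set κ := hUV.isHermitian.eigenvalues with hκ
  have hU' : (Wᴴ * U * W).PosSemidef := hU.conjTranspose_mul_mul_same W
  have hV' : (Wᴴ * V * W).PosSemidef := hV.conjTranspose_mul_mul_same W
  set u : X → ℝ := fun i => ((Wᴴ * U * W) i i).re with hu
  set v : X → ℝ := fun i => ((Wᴴ * V * W) i i).re with hv
  have hu0 : ∀ i, 0 ≤ u i := fun i => (Complex.nonneg_iff.1 (hU'.diag_nonneg (i := i))).1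
  have hv0 : ∀ i, 0 ≤ v i := fun i => (Complex.nonneg_iff.1 (hV'.diag_nonneg (i := i))).1
  have hκe : ∀ i, κ i = u i + v i := by
    intro i
    have e : Wᴴ * (U + V) * W = diagonal (fun j => (κ j : ℂ)) := by
      conv_lhs => rw [h3]
      calc Wᴴ * (W * diagonal (fun k => (κ k : ℂ)) * Wᴴ) * W
          = (Wᴴ * W) * diagonal (fun k => (κ k : ℂ)) * (Wᴴ * W) := by
            simp only [Matrix.mul_assoc]
        _ = _ := by rw [h1]; simp
    have e2 := congrArg Complex.re (congrFun (congrFun e i) i)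
    rw [mul_add, add_mul, Matrix.add_apply, diagonal_apply_eq, Complex.add_re,
      Complex.ofReal_re] at e2
    exact e2.symm
  have tr : ∀ A : Matrix X X ℂ, ∑ i, ((Wᴴ * A * W) i i).re = A.trace.re := by
    intro A
    have : (Wᴴ * A * W).trace = A.trace := by
      rw [Matrix.trace_mul_comm, ← Matrix.mul_assoc, h2, Matrix.one_mul]
    rw [← this, Matrix.trace, Complex.re_sum]
    rfl
  have hsu : ∑ i, u i = U.trace.re := tr U
  have hsv : ∑ i, v i = V.trace.re := tr V
  have eU : ent U ≤ ∑ i, Real.negMulLog (u i) := by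
    have := ent_le_diag hU'
    rwa [ent_conj h2] at this
  have eV : ent V ≤ ∑ i, Real.negMulLog (v i) := by
    have := ent_le_diag hV'
    rwa [ent_conj h2] at this
  have key := Lam_sum Finset.univ u (fun _ => 0) v hu0 (fun _ => le_rfl) hv0
  simp only [Finset.sum_const_zero, Lam_mid_zero, Finset.sum_sub_distrib, hsu, hsv] at key
  rw [hen]
  simp only [hκe]
  linarith

theorem rescale_psd {α Y β : Matrix X X ℂ} (hρ : (fromBlocks α Y Yᴴ β).PosSemidef) {a η : ℝ}
    (ha : 0 < a) (hη : 0 ≤ η) :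
    (fromBlocks ((a : ℂ) • α) ((Real.sqrt η : ℂ) • Y) ((Real.sqrt η : ℂ) • Y)ᴴ
      (((η / a : ℝ) : ℂ) • β)).PosSemidef := by
  have h := hρ.mul_mul_conjTranspose_same
    (fromBlocks ((Real.sqrt a : ℂ) • (1 : Matrix X X ℂ)) 0 0
      ((Real.sqrt (η / a) : ℂ) • (1 : Matrix X X ℂ)))
  convert h using 1
  simp only [fromBlocks_conjTranspose, fromBlocks_multiply, conjTranspose_smul, conjTranspose_one,
    conjTranspose_zero, Matrix.mul_zero, Matrix.zero_mul, add_zero, zero_add, Matrix.mul_smul,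
    Matrix.smul_mul, Matrix.mul_one, Matrix.one_mul, smul_smul]
  have s1 : ∀ t : ℝ, star (Real.sqrt t : ℂ) = (Real.sqrt t : ℂ) := fun t => by simp
  have e1 : (Real.sqrt a : ℂ) * (Real.sqrt a : ℂ) = (a : ℂ) := by
    rw [← Complex.ofReal_mul, Real.mul_self_sqrt ha.le]
  have e2 : (Real.sqrt (η / a) : ℂ) * (Real.sqrt (η / a) : ℂ) = ((η / a : ℝ) : ℂ) := by
    rw [← Complex.ofReal_mul, Real.mul_self_sqrt (by positivity)]
  have e3 : (Real.sqrt (η / a) : ℂ) * (Real.sqrt a : ℂ) = (Real.sqrt η : ℂ) := by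
    rw [← Complex.ofReal_mul, ← Real.sqrt_mul (by positivity), div_mul_cancel₀ _ ha.ne']
  have e4 : (Real.sqrt a : ℂ) * (Real.sqrt (η / a) : ℂ) = (Real.sqrt η : ℂ) := by
    rw [mul_comm, e3]
  simp only [s1, e1, e2, e3, e4]

end

/-- the function `g` -/
noncomputable def gg (γ ν : ℝ) (q : ℝ) : ℝ :=
  pairEnt 1 (((1 - γ) * q + γ * ν) * (1 - ((1 - γ) * q + γ * ν)) - (1 - γ) * (q * (1 - q)))

theorem zclaim_main {γ ν : ℝ} (hγ0 : 0 < γ) (hγ1 : γ < 1) (hν0 : 0 < ν) (hν1 : ν < 1)
    {X : Type*} [Fintype X] [DecidableEq X] {α Y β : Matrix X X ℂ}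
    (hρ : (fromBlocks α Y Yᴴ β).PosSemidef) (hx : 0 < α.trace.re) (hy : 0 < β.trace.re) :
    ent α + ent β + (Real.negMulLog (α.trace.re + β.trace.re)
      + (α.trace.re + β.trace.re) * gg γ ν (β.trace.re / (α.trace.re + β.trace.re)))
      ≤ ent (outG γ ν α Y β) + Real.negMulLog α.trace.re + Real.negMulLog β.trace.re := by
  have hα : α.PosSemidef := hρ.submatrix (Sum.inl : X → X ⊕ X)
  have hβ : β.PosSemidef := hρ.submatrix (Sum.inr : X → X ⊕ X)
  set x0 := α.trace.re with hx0
  set y0 := β.trace.re with hy0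
  have hγν : 0 < γ * ν := mul_pos hγ0 hν0
  have hγν1 : γ * ν < 1 := by nlinarith
  set a : ℝ := 1 - γ * ν with ha
  set b : ℝ := γ * (1 - ν) with hb
  set c : ℝ := 1 - γ + γ * ν with hc
  set d : ℝ := γ * ν with hd
  set η : ℝ := 1 - γ with hη
  have ha0 : 0 < a := by rw [ha]; linarith
  have hb0 : 0 < b := mul_pos hγ0 (by linarith)
  have hη0 : 0 < η := by rw [hη]; linarith
  have hac : η + b * d = a * c := by rw [hη, hb, hd, ha, hc]; ring
  set E : Matrix X X ℂ := (d : ℂ) • α + ((b * d / a : ℝ) : ℂ) • β with hE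
  have hρ' := rescale_psd hρ ha0 hη0.le
  have hDp : ((b : ℂ) • β).PosSemidef := smul_posSemidef hβ hb0.le
  have hE1 : ((d : ℂ) • α).PosSemidef := smul_posSemidef hα hγν.le
  have hE2 : (((b * d / a : ℝ) : ℂ) • β).PosSemidef := smul_posSemidef hβ (by positivity)
  have hEp : E.PosSemidef := hE1.add hE2
  have htr : ∀ (t : ℝ) (A : Matrix X X ℂ), ((t : ℂ) • A).trace.re = t * A.trace.re := by
    intro t A
    rw [trace_smul, smul_eq_mul, Complex.re_ofReal_mul]
  have hEt : E.trace.re = d * x0 + b * d / a * y0 := by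
    rw [hE, trace_add, Complex.add_re, htr, htr]
  have key := main_block hρ' hDp hEp
    (by rw [htr]; positivity) (by rw [htr]; positivity) (by rw [htr]; positivity)
    (by rw [hEt]; positivity)
  have hst := star_ineq hE1 hE2
  rw [← hE] at hst
  have hout : fromBlocks ((a : ℂ) • α + (b : ℂ) • β) ((Real.sqrt η : ℂ) • Y)
      ((Real.sqrt η : ℂ) • Y)ᴴ (((η / a : ℝ) : ℂ) • β + E) = outG γ ν α Y β := by
    unfold outG
    congr 1
    · rw [conjTranspose_smul]; simp; rfl
    · rw [hE, add_comm (((η / a : ℝ) : ℂ) • β), add_assoc, ← add_smul, ← Complex.ofReal_add]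
      congr 3
      rw [← add_div, add_comm (b * d) η, hac, mul_div_cancel_left₀ _ ha0.ne']
  rw [hout] at key
  simp only [htr, hEt, ent_smul hα, ent_smul hβ, ← hx0, ← hy0] at key hst
  have hpair : pairEnt (a * x0 + b * y0 + η / a * y0 + (d * x0 + b * d / a * y0))
      (a * x0 * (d * x0 + b * d / a * y0) + η / a * y0 * (b * y0)
        + b * y0 * (d * x0 + b * d / a * y0))
      = Real.negMulLog (x0 + y0) + (x0 + y0) * gg γ ν (y0 / (x0 + y0)) := by
    have ht : 0 < x0 + y0 := by positivity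
    unfold gg
    rw [← pairEnt_smul ht.le]
    have hη' : η = a * c - b * d := by linarith
    congr 1
    · have : a * x0 + b * y0 + η / a * y0 + (d * x0 + b * d / a * y0)
          = (a + d) * x0 + (b + (η + b * d) / a) * y0 := by field_simp; ring
      rw [this, hac, mul_div_cancel_left₀ _ ha0.ne']
      rw [ha, hd, hb, hc]
      ring
    · have e1 : a * x0 * (d * x0 + b * d / a * y0) + η / a * y0 * (b * y0)
        + b * y0 * (d * x0 + b * d / a * y0)
        = a * d * x0 ^ 2 + 2 * (b * d) * x0 * y0 + b * ((η + b * d) / a) * y0 ^ 2 := by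
        field_simp; ring
      rw [e1, hac, mul_div_cancel_left₀ _ ha0.ne']
      have e2 : (x0 + y0) ^ 2 * (((1 - γ) * (y0 / (x0 + y0)) + γ * ν)
          * (1 - ((1 - γ) * (y0 / (x0 + y0)) + γ * ν))
          - (1 - γ) * (y0 / (x0 + y0) * (1 - y0 / (x0 + y0))))
          = ((1 - γ) * y0 + γ * ν * (x0 + y0)) * ((x0 + y0) - ((1 - γ) * y0 + γ * ν * (x0 + y0)))
            - (1 - γ) * (y0 * x0) := by
        field_simp
        ring
      rw [e2, ha, hd, hb, hc]
      ring
  rw [hpair] at key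
  simp only [Real.negMulLog_mul] at key hst
  have f1 : a + d = 1 := by rw [ha, hd]; ring
  have f2 : b + η / a + b * d / a = 1 := by
    have : b + η / a + b * d / a = b + (η + b * d) / a := by field_simp; ring
    rw [this, hac, mul_div_cancel_left₀ _ ha0.ne', hb, hc]; ring
  have g1 : a * ent α + d * ent α = ent α := by rw [← add_mul, f1, one_mul]
  have g2 : b * ent β + η / a * ent β + b * d / a * ent β = ent β := by
    rw [← add_mul, ← add_mul, f2, one_mul]
  have g3 : a * Real.negMulLog x0 + d * Real.negMulLog x0 = Real.negMulLog x0 := by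
    rw [← add_mul, f1, one_mul]
  have g4 : b * Real.negMulLog y0 + η / a * Real.negMulLog y0 + b * d / a * Real.negMulLog y0
      = Real.negMulLog y0 := by
    rw [← add_mul, ← add_mul, f2, one_mul]
  linarith

theorem psd_trace_zero {X : Type*} [Fintype X] {A : Matrix X X ℂ}
    (hA : A.PosSemidef) (h : A.trace.re = 0) : A = 0 := by
  apply hA.trace_eq_zero_iff.1
  have := Complex.nonneg_iff.1 hA.trace_nonneg
  exact Complex.ext h this.2.symm

theorem ent_zero {X : Type*} [Fintype X] [DecidableEq X] : ent (0 : Matrix X X ℂ) = 0 := by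
  have h := ent_smul (Matrix.PosSemidef.zero (n := X) (R := ℂ)) 0
  simpa using h

theorem gg_one (γ ν : ℝ) : gg γ ν 1
    = Real.negMulLog (γ * (1 - ν)) + Real.negMulLog (1 - γ + γ * ν) := by
  unfold gg
  exact pairEnt_eq (by ring) (by ring)

theorem gg_zero (γ ν : ℝ) : gg γ ν 0
    = Real.negMulLog (1 - γ * ν) + Real.negMulLog (γ * ν) := by
  unfold gg
  exact pairEnt_eq (by ring) (by ring)

theorem zclaim_left_zero {γ ν : ℝ} {X : Type*} [Fintype X] [DecidableEq X] {α Y β : Matrix X X ℂ}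
    (hρ : (fromBlocks α Y Yᴴ β).PosSemidef) (hx : α.trace.re = 0) :
    ent α + ent β + (Real.negMulLog (α.trace.re + β.trace.re)
      + (α.trace.re + β.trace.re) * gg γ ν (β.trace.re / (α.trace.re + β.trace.re)))
      ≤ ent (outG γ ν α Y β) + Real.negMulLog α.trace.re + Real.negMulLog β.trace.re := by
  have hα : α.PosSemidef := hρ.submatrix (Sum.inl : X → X ⊕ X)
  have hβ : β.PosSemidef := hρ.submatrix (Sum.inr : X → X ⊕ X)
  have hα0 : α = 0 := psd_trace_zero hα hx
  have hY0 : Y = 0 := by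
    have h1 : Yᴴ = 0 := by
      ext i j
      have := posSemidef_col_zero hρ (i := Sum.inl j) (by simp [hα0]) (Sum.inr i)
      simpa using this
    have h2 := congrArg conjTranspose h1
    simpa using h2
  have hout : outG γ ν α Y β = fromBlocks (((γ * (1 - ν) : ℝ) : ℂ) • β) 0 0
      (((1 - γ + γ * ν : ℝ) : ℂ) • β) := by
    unfold outG
    rw [hα0, hY0]
    congr 1 <;> simp
  rw [hout, ent_fromBlocks_diag, ent_smul hβ, ent_smul hβ, hx, hα0, ent_zero, zero_add, zero_add]
  have e : γ * (1 - ν) * ent β + (1 - γ + γ * ν) * ent β = ent β := by ring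
  rcases eq_or_ne β.trace.re 0 with h0 | h0
  · rw [h0]
    simp
    linarith
  · rw [div_self h0, gg_one]
    simp only [Real.negMulLog_zero]
    linarith

theorem zclaim_right_zero {γ ν : ℝ} {X : Type*} [Fintype X] [DecidableEq X] {α Y β : Matrix X X ℂ}
    (hρ : (fromBlocks α Y Yᴴ β).PosSemidef) (hy : β.trace.re = 0) :
    ent α + ent β + (Real.negMulLog (α.trace.re + β.trace.re)
      + (α.trace.re + β.trace.re) * gg γ ν (β.trace.re / (α.trace.re + β.trace.re)))
      ≤ ent (outG γ ν α Y β) + Real.negMulLog α.trace.re + Real.negMulLog β.trace.re := by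
  have hα : α.PosSemidef := hρ.submatrix (Sum.inl : X → X ⊕ X)
  have hβ : β.PosSemidef := hρ.submatrix (Sum.inr : X → X ⊕ X)
  have hβ0 : β = 0 := psd_trace_zero hβ hy
  have hY0 : Y = 0 := by
    ext i j
    have := posSemidef_col_zero hρ (i := Sum.inr j) (by simp [hβ0]) (Sum.inl i)
    simpa using this
  have hout : outG γ ν α Y β = fromBlocks (((1 - γ * ν : ℝ) : ℂ) • α) 0 0
      (((γ * ν : ℝ) : ℂ) • α) := by
    unfold outG
    rw [hβ0, hY0]
    congr 1 <;> simp
  rw [hout, ent_fromBlocks_diag, ent_smul hα, ent_smul hα, hy, hβ0, ent_zero, add_zero, add_zero,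
    zero_div, gg_zero]
  simp only [Real.negMulLog_zero]
  linarith

theorem zclaim_all {γ ν : ℝ} (hγ0 : 0 ≤ γ) (hγ1 : γ ≤ 1) (hν0 : 0 ≤ ν) (hν1 : ν ≤ 1) :
    ZClaim γ ν (gg γ ν) := by
  intro n α Y β hρ
  have hα : α.PosSemidef := hρ.submatrix (Sum.inl : Bits n → Bits n ⊕ Bits n)
  have hβ : β.PosSemidef := hρ.submatrix (Sum.inr : Bits n → Bits n ⊕ Bits n)
  have hx : 0 ≤ α.trace.re := (Complex.nonneg_iff.1 hα.trace_nonneg).1
  have hy : 0 ≤ β.trace.re := (Complex.nonneg_iff.1 hβ.trace_nonneg).1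
  rcases hx.eq_or_lt with hx | hx
  · exact zclaim_left_zero hρ hx.symm
  rcases hy.eq_or_lt with hy | hy
  · exact zclaim_right_zero hρ hy.symm
  rcases hν0.eq_or_lt with h | hν0'
  · have := zclaim_zero hγ0 hγ1 n α Y β hρ
    simp only at this
    subst h
    convert this using 3
    unfold gg
    congr 1
    congr 1
    ring
  rcases hν1.eq_or_lt with h | hν1'
  · have := zclaim_one hγ0 hγ1 n α Y β hρ
    simp only at this
    subst h
    convert this using 3
    unfold gg
    congr 1
    congr 1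
    ring
  rcases hγ0.eq_or_lt with h | hγ0'
  · have := zclaim_zero (le_refl (0 : ℝ)) zero_le_one n α Y β hρ
    simp only at this
    subst h
    have e1 : outG 0 ν α Y β = outG 0 0 α Y β := by
      unfold outG
      simp
    rw [e1]
    convert this using 3
    unfold gg
    congr 1
    congr 1
    ring
  rcases hγ1.eq_or_lt with h | hγ1'
  · subst h
    have hs := star_ineq hα hβ
    have hαβ := hα.add hβ
    have e1 : outG 1 ν α Y β = fromBlocks (((1 - ν : ℝ) : ℂ) • (α + β)) 0 0
        (((ν : ℝ) : ℂ) • (α + β)) := by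
      unfold outG
      congr 1
      · simp
      · simp
      · simp
      · simp
    have e2 : ∀ q, gg 1 ν q = Real.negMulLog (1 - ν) + Real.negMulLog ν := by
      intro q
      unfold gg
      exact pairEnt_eq (by ring) (by ring)
    rw [e1, ent_fromBlocks_diag, ent_smul hαβ, ent_smul hαβ, e2, trace_add, Complex.add_re]
    have e3 : (1 - ν) * ent (α + β) + ν * ent (α + β) = ent (α + β) := by ring
    linarith
  exact zclaim_main hγ0' hγ1' hν0' hν1' hρ hx hy

end Vale.Agent.H19.GAD
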